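import Mathlib
import Crest.Prelude.Def_AsymptoticConvexity

/-!
Common abstract lemmas for the row S0166–S0169: non-existence of asymptotically uniformly convex
renormings from trees with bounded branches, and "almost in every finite-codimensional subspace"
for sequences with sublinear sums.
-/

set_option autoImplicit false

namespace Crest.Agent.Lib.AUC

variable {X : Type*} [NormedAddCommGroup X] [NormedSpace ℝ X]

/-- A small quotient norm gives a close element of the subspace. -/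
lemma exists_mem_close_of_quot (S : Submodule ℝ X) (x : X) {δ : ℝ}
    (h : ‖(Submodule.Quotient.mk x : X ⧸ S)‖ < δ) : ∃ s ∈ S, ‖x - s‖ < δ := by
  have hpos : 0 < δ - ‖(Submodule.Quotient.mk x : X ⧸ S)‖ := by linarith
  obtain ⟨m, hm, hm'⟩ := Submodule.Quotient.norm_mk_lt (Submodule.Quotient.mk x : X ⧸ S) hpos
  have hmem : x - m ∈ S := by
    have h1 := (Submodule.Quotient.eq S).1 hm
    have h2 := S.neg_mem h1
    simpa using h2
  refine ⟨x - m, hmem, ?_⟩
  have : x - (x - m) = m := by abel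
  rw [this]; linarith

/-- A bounded sequence whose finite sums have norm at most `K √(card)` eventually approaches
any closed finite-codimensional subspace. -/
theorem exists_near_of_sublinear (S : Submodule ℝ X) (hS : IsClosed (S : Set X))
    (hfd : FiniteDimensional ℝ (X ⧸ S)) (y : ℕ → X) (C K : ℝ) (hy : ∀ n, ‖y n‖ ≤ C)
    (hK : ∀ A : Finset ℕ, ‖∑ n ∈ A, y n‖ ≤ K * Real.sqrt A.card) {δ : ℝ} (hδ : 0 < δ) :
    ∃ n, ∃ s ∈ S, ‖y n - s‖ < δ := by
  by_contra hcon
  push_neg at hcon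
  haveI : IsClosed (S : Set X) := hS
  haveI : FiniteDimensional ℝ (X ⧸ S) := hfd
  haveI : ProperSpace (X ⧸ S) := FiniteDimensional.proper_real _
  set q : ℕ → X ⧸ S := fun n => Submodule.Quotient.mk (y n) with hq
  have hlow : ∀ n, δ ≤ ‖q n‖ := by
    intro n
    by_contra hlt
    push_neg at hlt
    obtain ⟨s, hs, hs'⟩ := exists_mem_close_of_quot S (y n) hlt
    exact absurd hs' (not_lt.2 (hcon n s hs))
  have hup : ∀ n, ‖q n‖ ≤ C := fun n => (Submodule.Quotient.norm_mk_le S (y n)).trans (hy n)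
  have hbdd : ∀ n, q n ∈ Metric.closedBall (0 : X ⧸ S) C := fun n => by
    simpa [Metric.mem_closedBall, dist_zero_right] using hup n
  obtain ⟨z, -, φ, hφ, hlim⟩ := tendsto_subseq_of_bounded
    (Metric.isBounded_closedBall) hbdd
  have hz : δ ≤ ‖z‖ := by
    have : Filter.Tendsto (fun n => ‖(q ∘ φ) n‖) Filter.atTop (nhds ‖z‖) := hlim.norm
    exact ge_of_tendsto' this (fun n => hlow _)
  obtain ⟨N, hN⟩ : ∃ N, ∀ i ≥ N, ‖q (φ i) - z‖ < δ / 2 := by
    have := Metric.tendsto_atTop.1 hlim (δ / 2) (by linarith)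
    obtain ⟨N, hN⟩ := this
    exact ⟨N, fun i hi => by simpa [dist_eq_norm] using hN i hi⟩
  -- choose `M` large
  obtain ⟨M, hM⟩ : ∃ M : ℕ, 2 * K / δ < Real.sqrt M ∧ 0 < M := by
    obtain ⟨n, hn⟩ := exists_nat_gt ((2 * K / δ) ^ 2)
    refine ⟨n + 1, ?_, Nat.succ_pos _⟩
    have h1 : (2 * K / δ) ^ 2 < ((n + 1 : ℕ) : ℝ) := by push_cast; linarith
    exact Real.lt_sqrt_of_sq_lt h1
  have hKcard : ((Finset.range M).image (fun i => φ (N + i))).card = M := by
    rw [Finset.card_image_of_injective, Finset.card_range]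
    intro i j hij
    have := hφ.injective hij
    omega
  have hsum := hK ((Finset.range M).image (fun i => φ (N + i)))
  rw [hKcard, Finset.sum_image (fun i _ j _ hij => by
    have := hφ.injective hij
    omega)] at hsum
  -- lower bound in the quotient
  have hquot : ‖∑ i ∈ Finset.range M, q (φ (N + i))‖ ≤ K * Real.sqrt M := by
    have heq : ∑ i ∈ Finset.range M, q (φ (N + i))
        = Submodule.Quotient.mk (∑ i ∈ Finset.range M, y (φ (N + i))) := by
      simp only [hq]
      exact (map_sum S.mkQ (fun i => y (φ (N + i))) (Finset.range M)).symm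
    rw [heq]
    exact (Submodule.Quotient.norm_mk_le S _).trans hsum
  have hdiff : ‖∑ i ∈ Finset.range M, q (φ (N + i)) - (M : ℝ) • z‖ ≤ (M : ℝ) * (δ / 2) := by
    have : ∑ i ∈ Finset.range M, q (φ (N + i)) - (M : ℝ) • z
        = ∑ i ∈ Finset.range M, (q (φ (N + i)) - z) := by
      rw [Finset.sum_sub_distrib]; simp [Nat.cast_smul_eq_nsmul]
    rw [this]
    calc _ ≤ ∑ i ∈ Finset.range M, ‖q (φ (N + i)) - z‖ := norm_sum_le _ _
      _ ≤ ∑ _i ∈ Finset.range M, δ / 2 :=
          Finset.sum_le_sum (fun i _ => (hN _ (by omega)).le)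
      _ = (M : ℝ) * (δ / 2) := by simp
  have hMpos : (0 : ℝ) < M := by exact_mod_cast hM.2
  have hlower : (M : ℝ) * (δ / 2) ≤ ‖∑ i ∈ Finset.range M, q (φ (N + i))‖ := by
    have h1 : ‖(M : ℝ) • z‖ = (M : ℝ) * ‖z‖ := by
      rw [norm_smul, Real.norm_of_nonneg hMpos.le]
    have h2 : ‖(M : ℝ) • z‖ ≤ ‖∑ i ∈ Finset.range M, q (φ (N + i))‖
        + ‖∑ i ∈ Finset.range M, q (φ (N + i)) - (M : ℝ) • z‖ := by
      have := norm_sub_le (∑ i ∈ Finset.range M, q (φ (N + i)))
        (∑ i ∈ Finset.range M, q (φ (N + i)) - (M : ℝ) • z)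
      simpa using this
    nlinarith
  have hsq : Real.sqrt M * Real.sqrt M = M := Real.mul_self_sqrt hMpos.le
  have hsqpos : 0 < Real.sqrt M := Real.sqrt_pos.2 hMpos
  have hfin : (M : ℝ) * (δ / 2) ≤ K * Real.sqrt M := hlower.trans hquot
  have h2 : Real.sqrt M * (δ / 2) ≤ K := by
    have : Real.sqrt M * (Real.sqrt M * (δ / 2)) ≤ Real.sqrt M * K := by
      calc _ = (Real.sqrt M * Real.sqrt M) * (δ / 2) := by ring
        _ = M * (δ / 2) := by rw [hsq]
        _ ≤ K * Real.sqrt M := hfin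
        _ = Real.sqrt M * K := by ring
    exact le_of_mul_le_mul_left this hsqpos
  have h3 := hM.1
  have h4 : 2 * K / δ ≥ Real.sqrt M := by
    rw [ge_iff_le, le_div_iff₀ hδ]
    linarith
  linarith

private lemma conv_id (u w : X) (t T lam : ℝ) (h : lam * T = t) :
    u + t • w = (1 - lam) • u + lam • (u + T • w) := by
  rw [smul_add, smul_smul, h, sub_smul, one_smul]
  abel

private lemma scale_id (x s : X) (p r : ℝ) (hp : p ≠ 0) (hr : r ≠ 0) :
    x + s = p • (p⁻¹ • x + (r / p) • r⁻¹ • s) := by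
  rw [smul_add, smul_smul, mul_inv_cancel₀ hp, one_smul, smul_smul, smul_smul]
  have : p * (r / p) * r⁻¹ = 1 := by field_simp
  rw [this, one_smul]

/-- The unbundled tree criterion: a norm equivalent to the given one and asymptotically uniformly
convex is impossible if there are, for every height, trees with bounded nodes whose increments stay
bounded below and almost in any given finite-codimensional subspace. -/
theorem not_auc_of_trees (N : X → ℝ)
    (hadd : ∀ x y, N (x + y) ≤ N x + N y) (hsmul : ∀ (a : ℝ) x, N (a • x) = |a| * N x)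
    (a b : ℝ) (ha : 0 < a) (hab : ∀ x, a * ‖x‖ ≤ N x ∧ N x ≤ b * ‖x‖)
    (C m : ℝ) (hm : 0 < m)
    (tree : ∀ L : ℕ, ∃ 𝒯 : ℕ → Set X, (∃ x ∈ 𝒯 0, m ≤ ‖x‖) ∧ (∀ j, ∀ x ∈ 𝒯 j, ‖x‖ ≤ C) ∧
      ∀ j, j < L → ∀ x ∈ 𝒯 j, ∀ S : Submodule ℝ X, IsClosed (S : Set X) →
        FiniteDimensional ℝ (X ⧸ S) → ∀ δ : ℝ, 0 < δ →
          ∃ y, m ≤ ‖y‖ ∧ x + y ∈ 𝒯 (j + 1) ∧ ∃ s ∈ S, ‖y - s‖ < δ)
    (hAUC : ∀ t : ℝ, 0 < t → ∃ c : ℝ, 0 < c ∧ ∀ x, N x = 1 → ∃ S : Submodule ℝ X,
      IsClosed (S : Set X) ∧ FiniteDimensional ℝ (X ⧸ S) ∧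
        ∀ y ∈ S, N y = 1 → c ≤ N (x + t • y) - 1) : False := by
  -- positivity of the constants
  obtain ⟨𝒯₀, ⟨x₀, hx₀, hx₀m⟩, hC₀, -⟩ := tree 0
  have hCpos : 0 < C := lt_of_lt_of_le (lt_of_lt_of_le hm hx₀m) (hC₀ 0 x₀ hx₀)
  have hx₀pos : 0 < ‖x₀‖ := lt_of_lt_of_le hm hx₀m
  have hbpos : 0 < b := by
    have h := hab x₀
    have : a * ‖x₀‖ ≤ b * ‖x₀‖ := h.1.trans h.2
    have hle : a ≤ b := le_of_mul_le_mul_right this hx₀pos
    linarith
  set t₀ : ℝ := a * m / (2 * b * C) with ht₀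
  have ht₀pos : 0 < t₀ := by positivity
  obtain ⟨c, hc, hAU⟩ := hAUC t₀ ht₀pos
  set A : ℝ := a * m with hA
  have hApos : 0 < A := by positivity
  set δ : ℝ := min (m / 2) (c * A / (2 * b)) with hδdef
  have hδpos : 0 < δ := lt_min (by positivity) (by positivity)
  obtain ⟨L, hL⟩ : ∃ L : ℕ, b * C < A + L * (c * A / 2) := by
    obtain ⟨n, hn⟩ := exists_nat_gt ((b * C) / (c * A / 2))
    refine ⟨n, ?_⟩
    have hpos : 0 < c * A / 2 := by positivity
    rw [div_lt_iff₀ hpos] at hn
    linarith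
  obtain ⟨𝒯, ⟨x₁, hx₁, hx₁m⟩, hbd, hstep⟩ := tree L
  have key : ∀ j : ℕ, j ≤ L → ∃ x ∈ 𝒯 j, A + j * (c * A / 2) ≤ N x := by
    intro j
    induction j with
    | zero =>
      intro _
      refine ⟨x₁, hx₁, ?_⟩
      have := (hab x₁).1
      simp only [Nat.cast_zero, zero_mul, add_zero]
      calc A = a * m := rfl
        _ ≤ a * ‖x₁‖ := by gcongr
        _ ≤ N x₁ := this
    | succ j ih =>
      intro hj
      obtain ⟨x, hx, hxN⟩ := ih (by omega)
      have hNxA : A ≤ N x := by
        have : (0 : ℝ) ≤ j * (c * A / 2) := by positivity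
        linarith
      have hNxpos : 0 < N x := by linarith
      have hNxle : N x ≤ b * C := (hab x).2.trans (by
        have := hbd j x hx
        gcongr)
      -- normalise
      set u : X := (N x)⁻¹ • x with hu
      have hNu : N u = 1 := by
        rw [hu, hsmul, abs_of_pos (inv_pos.2 hNxpos)]
        field_simp
      obtain ⟨S, hScl, hSfd, hS⟩ := hAU u hNu
      obtain ⟨y, hym, hxy, s, hs, hsy⟩ := hstep j (by omega) x hx S hScl hSfd δ hδpos
      have hδm : δ ≤ m / 2 := min_le_left _ _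
      have hsnorm : m / 2 ≤ ‖s‖ := by
        have h1 : ‖y‖ ≤ ‖s‖ + ‖y - s‖ := by
          have := norm_add_le s (y - s)
          simpa using this
        linarith
      have hNs : a * (m / 2) ≤ N s := (by gcongr : a * (m / 2) ≤ a * ‖s‖).trans (hab s).1
      have hNspos : 0 < N s := lt_of_lt_of_le (by positivity) hNs
      set w : X := (N s)⁻¹ • s with hw
      have hwS : w ∈ S := S.smul_mem _ hs
      have hNw : N w = 1 := by
        rw [hw, hsmul, abs_of_pos (inv_pos.2 hNspos)]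
        field_simp
      have hgrow := hS w hwS hNw
      -- ratio
      set T : ℝ := N s / N x with hT
      have hTpos : 0 < T := by positivity
      have htT : t₀ ≤ T := by
        rw [ht₀, hT, div_le_div_iff₀ (by positivity) hNxpos]
        have h1 : a * m * N x ≤ a * m * (b * C) := by gcongr
        have h2 : (a * (m / 2)) * (2 * b * C) ≤ N s * (2 * b * C) := by gcongr
        nlinarith
      set lam : ℝ := t₀ / T with hlam
      have hlampos : 0 < lam := by positivity
      have hlamle : lam ≤ 1 := by rw [hlam, div_le_one hTpos]; exact htT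
      have hconv : u + t₀ • w = (1 - lam) • u + lam • (u + T • w) := by
        have : lam * T = t₀ := by rw [hlam]; field_simp
        exact conv_id u w t₀ T lam this
      have hNconv : N (u + t₀ • w) ≤ (1 - lam) + lam * N (u + T • w) := by
        rw [hconv]
        refine (hadd _ _).trans ?_
        rw [hsmul (1 - lam) u, hsmul lam (u + T • w),
          abs_of_nonneg (by linarith : (0 : ℝ) ≤ 1 - lam), abs_of_pos hlampos, hNu]
        linarith
      have hcT : 1 + c ≤ N (u + T • w) := by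
        have h1 : 1 + c ≤ (1 - lam) + lam * N (u + T • w) := by linarith
        have h2 : c ≤ lam * (N (u + T • w) - 1) := by nlinarith
        have h3 : lam * (N (u + T • w) - 1) ≤ 1 * (N (u + T • w) - 1) := by
          have : 0 ≤ N (u + T • w) - 1 := by
            by_contra hneg
            push_neg at hneg
            nlinarith
          exact mul_le_mul_of_nonneg_right hlamle this
        linarith
      have hscale : x + s = (N x) • (u + T • w) := by
        rw [hu, hw, hT]
        exact scale_id x s (N x) (N s) hNxpos.ne' hNspos.ne'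
      have hNxs : N x * (1 + c) ≤ N (x + s) := by
        rw [hscale, hsmul (N x) (u + T • w), abs_of_pos hNxpos]
        gcongr
      have hsub : N (x + s) ≤ N (x + y) + N (s - y) := by
        have : x + s = (x + y) + (s - y) := by abel
        rw [this]; exact hadd _ _
      have hNsy : N (s - y) ≤ c * A / 2 := by
        have h1 : N (s - y) ≤ b * ‖s - y‖ := (hab _).2
        have h2 : ‖s - y‖ = ‖y - s‖ := norm_sub_rev _ _
        have h3 : ‖y - s‖ < c * A / (2 * b) := lt_of_lt_of_le hsy (min_le_right _ _)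
        have h4 : b * ‖y - s‖ ≤ b * (c * A / (2 * b)) := by gcongr
        have h5 : b * (c * A / (2 * b)) = c * A / 2 := by field_simp
        rw [h2] at h1
        linarith
      refine ⟨x + y, hxy, ?_⟩
      push_cast
      have h6 : c * A ≤ c * N x := by gcongr
      nlinarith
  obtain ⟨x, hx, hxN⟩ := key L le_rfl
  have h1 : N x ≤ b * C := (hab x).2.trans (by
    have := hbd L x hx
    gcongr)
  linarith

open Crest.AnalysisR in
/-- Bundled form of the tree criterion. -/
theorem realBanach_not_auc (E : RealBanach) (C m : ℝ) (hm : 0 < m)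
    (tree : letI := E.normed; letI := E.space
      ∀ L : ℕ, ∃ 𝒯 : ℕ → Set E.X, (∃ x ∈ 𝒯 0, m ≤ ‖x‖) ∧ (∀ j, ∀ x ∈ 𝒯 j, ‖x‖ ≤ C) ∧
      ∀ j, j < L → ∀ x ∈ 𝒯 j, ∀ S : Submodule ℝ E.X, IsClosed (S : Set E.X) →
        FiniteDimensional ℝ (E.X ⧸ S) → ∀ δ : ℝ, 0 < δ →
          ∃ y, m ≤ ‖y‖ ∧ x + y ∈ 𝒯 (j + 1) ∧ ∃ s ∈ S, ‖y - s‖ < δ) :
    ∀ N : E.X → ℝ, E.IsEquivNorm N → ¬ E.IsAUC N := by
  intro N hN hAUC
  letI := E.normed
  letI := E.space
  obtain ⟨hadd, hsmul, a, b, ha, hab⟩ := hN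
  refine not_auc_of_trees N hadd hsmul a b ha hab C m hm tree ?_
  intro t ht
  obtain ⟨c, hc, h⟩ := hAUC t ht
  refine ⟨c, hc, fun x hx => ?_⟩
  obtain ⟨F, ⟨S, rfl, hcl, hfd⟩, hF⟩ := h x hx
  exact ⟨S, hcl, hfd, fun y hy hNy => hF y hy hNy⟩

end Crest.Agent.Lib.AUC

namespace Crest.Agent.Lib.AUC

variable {X : Type*} [NormedAddCommGroup X] [NormedSpace ℝ X]

/-- The common kernel of finitely many continuous functionals is closed and of finite
codimension. -/
lemma exists_cof_of_functionals {ι : Type*} [Fintype ι] (φ : ι → X →L[ℝ] ℝ) :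
    ∃ S : Submodule ℝ X, IsClosed (S : Set X) ∧ FiniteDimensional ℝ (X ⧸ S) ∧
      ∀ y, y ∈ S ↔ ∀ i, φ i y = 0 := by
  let L : X →L[ℝ] (ι → ℝ) := ContinuousLinearMap.pi φ
  refine ⟨LinearMap.ker (L : X →ₗ[ℝ] (ι → ℝ)), ?_, ?_, ?_⟩
  · exact L.isClosed_ker
  · have e := (L : X →ₗ[ℝ] (ι → ℝ)).quotKerEquivRange
    exact Module.Finite.equiv e.symm
  · intro y
    simp only [LinearMap.mem_ker]
    constructor
    · intro h i
      have := congrFun h i
      simpa [L] using this
    · intro h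
      funext i
      simpa [L] using h i

end Crest.Agent.Lib.AUC
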