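import Mathlib
import Crest.Prelude.Def_DaugavetL1
import Crest.Agent.Lib.AUC.Basic

/-!
Daugavet property: slices and, by an approachability argument, weak neighbourhoods.
-/

set_option autoImplicit false

namespace Crest.Agent.Lib.AUC

open Crest.AnalysisR.L1Subspace

variable {V : Type*} [NormedAddCommGroup V] [NormedSpace ℝ V]

lemma daugavet_nontrivial (hD : HasDaugavetProperty V) : Nontrivial V := by
  by_contra hn
  rw [not_nontrivial_iff_subsingleton] at hn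
  have h := hD 0 0
  have h1 : ‖ContinuousLinearMap.id ℝ V + (0 : V →L[ℝ] ℝ).smulRight (0 : V)‖ = 0 := by
    have : ∀ T : V →L[ℝ] V, T = 0 := fun T => by
      ext x
      exact Subsingleton.elim _ _
    rw [this (ContinuousLinearMap.id ℝ V + (0 : V →L[ℝ] ℝ).smulRight (0 : V))]
    simp
  rw [h1] at h
  have h2 : 0 ≤ ‖(0 : V →L[ℝ] ℝ).smulRight (0 : V)‖ := norm_nonneg _
  linarith

/-- Core of the slice lemma for unit vectors and unit functionals. -/
lemma daugavet_core (hD : HasDaugavetProperty V) (z : V) (hz : ‖z‖ = 1) (ψ : V →L[ℝ] ℝ)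
    (hψ : ‖ψ‖ = 1) {ε : ℝ} (hε : 0 < ε) :
    ∃ u, ‖u‖ ≤ 1 ∧ 1 - ε ≤ ψ u ∧ 2 - 2 * ε ≤ ‖z + u‖ := by
  haveI : Nontrivial V := daugavet_nontrivial hD
  have hT := hD ψ z
  have hnorm : ‖ψ.smulRight z‖ = 1 := by
    rw [ContinuousLinearMap.norm_smulRight_apply, hψ, hz, one_mul]
  rw [hnorm] at hT
  have hlt : 2 - ε < ‖ContinuousLinearMap.id ℝ V + ψ.smulRight z‖ := by
    rw [hT]; linarith
  obtain ⟨u₀, hu₀, hlt₀⟩ := ContinuousLinearMap.exists_lt_apply_of_lt_opNorm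
    (ContinuousLinearMap.id ℝ V + ψ.smulRight z) hlt
  simp only [ContinuousLinearMap.add_apply, ContinuousLinearMap.id_apply,
    ContinuousLinearMap.smulRight_apply] at hlt₀
  -- sign normalisation
  obtain ⟨u, hu, hs, hu'⟩ : ∃ u : V, ‖u‖ ≤ 1 ∧ 0 ≤ ψ u ∧ 2 - ε < ‖u + ψ u • z‖ := by
    rcases le_total 0 (ψ u₀) with h | h
    · exact ⟨u₀, hu₀.le, h, hlt₀⟩
    · refine ⟨-u₀, by simpa using hu₀.le, by simpa using h, ?_⟩
      have : -u₀ + ψ (-u₀) • z = -(u₀ + ψ u₀ • z) := by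
        rw [map_neg, neg_smul, neg_add]
      rw [this, norm_neg]
      exact hlt₀
  have hψu : ψ u ≤ 1 := by
    have := ψ.le_opNorm u
    rw [hψ, one_mul, Real.norm_eq_abs] at this
    exact (le_abs_self _).trans (this.trans hu)
  have h1 : ‖u + ψ u • z‖ ≤ 1 + ψ u := by
    calc ‖u + ψ u • z‖ ≤ ‖u‖ + ‖ψ u • z‖ := norm_add_le _ _
      _ = ‖u‖ + ψ u := by
        rw [norm_smul, hz, mul_one, Real.norm_of_nonneg hs]
      _ ≤ 1 + ψ u := by linarith
  refine ⟨u, hu, by linarith, ?_⟩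
  have h2 : z + u = (u + ψ u • z) + (1 - ψ u) • z := by
    rw [sub_smul, one_smul]; abel
  have h3 : ‖u + ψ u • z‖ ≤ ‖z + u‖ + (1 - ψ u) := by
    have h4 : u + ψ u • z = (z + u) - (1 - ψ u) • z := by
      rw [h2]; abel
    rw [h4]
    calc ‖(z + u) - (1 - ψ u) • z‖ ≤ ‖z + u‖ + ‖(1 - ψ u) • z‖ := norm_sub_le _ _
      _ = ‖z + u‖ + (1 - ψ u) := by
        rw [norm_smul, hz, mul_one, Real.norm_of_nonneg (by linarith)]
  linarith

/-- The slice lemma. -/
lemma daugavet_slice (hD : HasDaugavetProperty V) (z : V) (ψ : V →L[ℝ] ℝ) {δ : ℝ} (hδ : 0 < δ) :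
    ∃ y, ‖y‖ ≤ 1 ∧ ‖ψ‖ - δ ≤ ψ y ∧ ‖z‖ + 1 - δ ≤ ‖z + y‖ := by
  haveI : Nontrivial V := daugavet_nontrivial hD
  obtain ⟨e, he⟩ := exists_norm_eq V (zero_le_one)
  -- unit functional
  obtain ⟨ψ₁, hψ₁, hψeq⟩ : ∃ ψ₁ : V →L[ℝ] ℝ, ‖ψ₁‖ = 1 ∧ ψ = ‖ψ‖ • ψ₁ := by
    by_cases h0 : ψ = 0
    · obtain ⟨g, hg, -⟩ := exists_dual_vector' (𝕜 := ℝ) (E := V) e
      refine ⟨g, hg, by simp [h0]⟩
    · have hne : ‖ψ‖ ≠ 0 := norm_ne_zero_iff.2 h0
      refine ⟨‖ψ‖⁻¹ • ψ, ?_, ?_⟩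
      · rw [norm_smul, norm_inv, norm_norm, inv_mul_cancel₀ hne]
      · rw [smul_smul, mul_inv_cancel₀ hne, one_smul]
  set R := ‖z‖ with hR
  have hR0 : 0 ≤ R := norm_nonneg _
  set ε : ℝ := δ / (2 * (R + 1) * (‖ψ‖ + 1)) with hε
  have hεpos : 0 < ε := by positivity
  have hε1 : 2 * R * ε ≤ δ ∧ 2 * ε ≤ δ ∧ ‖ψ‖ * ε ≤ δ := by
    have hA : ε * (2 * (R + 1) * (‖ψ‖ + 1)) = δ := by rw [hε]; field_simp
    have hn : 0 ≤ ‖ψ‖ := norm_nonneg _
    refine ⟨?_, ?_, ?_⟩ <;> nlinarith [mul_nonneg hR0 hn, mul_nonneg hεpos.le hR0,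
      mul_nonneg hεpos.le hn, mul_nonneg (mul_nonneg hεpos.le hR0) hn]
  -- unit vector
  by_cases hz0 : z = 0
  · obtain ⟨u, hu, h1, h2⟩ := daugavet_core hD e he ψ₁ hψ₁ hεpos
    refine ⟨u, hu, ?_, ?_⟩
    · have : ψ u = ‖ψ‖ * ψ₁ u := by
        conv_lhs => rw [hψeq]
        simp
      rw [this]
      nlinarith [norm_nonneg ψ, hε1.2.2]
    · subst hz0
      have h3 : ‖e + u‖ ≤ 1 + ‖u‖ := by
        have := norm_add_le e u
        rwa [he] at this
      simp only [norm_zero, zero_add] at *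
      linarith [hε1.2.1]
  · have hRpos : 0 < R := norm_pos_iff.2 hz0
    set z' : V := R⁻¹ • z with hz'
    have hz'n : ‖z'‖ = 1 := by
      rw [hz', norm_smul, norm_inv, Real.norm_of_nonneg hR0, inv_mul_cancel₀ hRpos.ne']
    have hzz' : z = R • z' := by
      rw [hz', smul_smul, mul_inv_cancel₀ hRpos.ne', one_smul]
    obtain ⟨u, hu, h1, h2⟩ := daugavet_core hD z' hz'n ψ₁ hψ₁ hεpos
    refine ⟨u, hu, ?_, ?_⟩
    · have : ψ u = ‖ψ‖ * ψ₁ u := by
        conv_lhs => rw [hψeq]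
        simp
      rw [this]
      nlinarith [norm_nonneg ψ, hε1.2.2]
    · have hmain : R + 1 - δ ≤ ‖R • z' + u‖ := by
        rcases le_total 1 R with hR1 | hR1
        · have h3 : R • (z' + u) = (R • z' + u) + (R - 1) • u := by
            rw [smul_add, sub_smul, one_smul]; abel
          have h4 : ‖R • (z' + u)‖ ≤ ‖R • z' + u‖ + (R - 1) * ‖u‖ := by
            rw [h3]
            refine (norm_add_le _ _).trans ?_
            rw [norm_smul, Real.norm_of_nonneg (by linarith : (0:ℝ) ≤ R - 1)]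
          have h5 : ‖R • (z' + u)‖ = R * ‖z' + u‖ := by
            rw [norm_smul, Real.norm_of_nonneg hR0]
          have h6 : (R - 1) * ‖u‖ ≤ R - 1 := by
            nlinarith [norm_nonneg u]
          have h7 : R * (2 - 2 * ε) ≤ R * ‖z' + u‖ := by gcongr
          nlinarith [hε1.1]
        · have h3 : z' + u = (R • z' + u) + (1 - R) • z' := by
            rw [sub_smul, one_smul]; abel
          have h4 : ‖z' + u‖ ≤ ‖R • z' + u‖ + (1 - R) := by
            rw [h3]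
            refine (norm_add_le _ _).trans ?_
            rw [norm_smul, hz'n, mul_one, Real.norm_of_nonneg (by linarith : (0:ℝ) ≤ 1 - R)]
          linarith [hε1.2.1]
      rw [hzz']
      exact hmain

/-- The scaled slice lemma. -/
lemma daugavet_slice_scaled (hD : HasDaugavetProperty V) (z : V) (ψ : V →L[ℝ] ℝ) {δ r : ℝ}
    (hδ : 0 < δ) (hr : 0 < r) :
    ∃ y, ‖y‖ ≤ 1 ∧ ‖ψ‖ - δ ≤ ψ y ∧ ‖z‖ + r - δ ≤ ‖z + r • y‖ := by
  set δ' : ℝ := min δ (δ / r) with hδ'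
  have hδ'pos : 0 < δ' := lt_min hδ (by positivity)
  obtain ⟨y, hy, h1, h2⟩ := daugavet_slice hD (r⁻¹ • z) ψ hδ'pos
  refine ⟨y, hy, by linarith [min_le_left δ (δ / r)], ?_⟩
  have h3 : z + r • y = r • (r⁻¹ • z + y) := by
    rw [smul_add, smul_smul, mul_inv_cancel₀ hr.ne', one_smul]
  have h4 : ‖r⁻¹ • z‖ = r⁻¹ * ‖z‖ := by
    rw [norm_smul, norm_inv, Real.norm_of_nonneg hr.le]
  rw [h3, norm_smul, Real.norm_of_nonneg hr.le]
  rw [h4] at h2
  have h5 : r * δ' ≤ δ := by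
    have : δ' ≤ δ / r := min_le_right _ _
    calc r * δ' ≤ r * (δ / r) := by gcongr
      _ = δ := by field_simp
  have h6 : r * (r⁻¹ * ‖z‖ + 1 - δ') ≤ r * ‖r⁻¹ • z + y‖ := by gcongr
  have h7 : r * (r⁻¹ * ‖z‖ + 1 - δ') = ‖z‖ + r - r * δ' := by
    field_simp
  linarith

/-- Weak neighbourhoods of the ball in a Daugavet space, by approachability: near `x` in a given
finite-codimensional quotient there is a point of the ball at distance about `1 + ‖x‖` from `x`. -/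
theorem daugavet_weak_nbhd (hD : HasDaugavetProperty V) (S : Submodule ℝ V)
    (hScl : IsClosed (S : Set V)) (hfd : FiniteDimensional ℝ (V ⧸ S)) (x : V) (hx : ‖x‖ ≤ 1)
    {δ : ℝ} (hδ : 0 < δ) :
    ∃ w, ‖w‖ ≤ 1 ∧ (∃ s ∈ S, ‖(w - x) - s‖ < δ) ∧ ‖x‖ + 1 - δ ≤ ‖w - x‖ := by
  haveI : IsClosed (S : Set V) := hScl
  haveI : FiniteDimensional ℝ (V ⧸ S) := hfd
  -- the finite-rank map into a Euclidean space
  let mkL : V →L[ℝ] (V ⧸ S) := (S.mkQ).mkContinuous 1 (fun v => by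
    simpa using Submodule.Quotient.norm_mk_le S v)
  let T := toEuclidean (E := V ⧸ S)
  let π : V →L[ℝ] EuclideanSpace ℝ (Fin (Module.finrank ℝ (V ⧸ S))) :=
    T.toContinuousLinearMap.comp mkL
  set M : ℝ := 2 * ‖π‖ + 1 with hM
  have hM0 : 0 < M := by positivity
  set A : ℝ := ‖T.symm.toContinuousLinearMap‖ + 1 with hA
  have hA0 : 0 < A := by positivity
  -- choice of n
  obtain ⟨n, hn, hnpos⟩ : ∃ n : ℕ, (A * Real.sqrt (2 + M ^ 2)) / δ < Real.sqrt n ∧ 0 < n := by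
    obtain ⟨n, hn⟩ := exists_nat_gt (((A * Real.sqrt (2 + M ^ 2)) / δ) ^ 2)
    refine ⟨n + 1, ?_, Nat.succ_pos _⟩
    have h1 : ((A * Real.sqrt (2 + M ^ 2)) / δ) ^ 2 < ((n + 1 : ℕ) : ℝ) := by push_cast; linarith
    exact Real.lt_sqrt_of_sq_lt h1
  have hnR : (0 : ℝ) < n := by exact_mod_cast hnpos
  set r : ℝ := (n : ℝ)⁻¹ with hr
  have hrpos : 0 < r := by positivity
  set δ₀ : ℝ := min 1 (δ / n) with hδ₀
  have hδ₀pos : 0 < δ₀ := lt_min one_pos (by positivity)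
  -- inductive construction
  have key : ∀ k : ℕ, k ≤ n → ∃ u : V, ‖u‖ ≤ k ∧ ‖x‖ + k * r - k * δ₀ ≤ ‖r • u - x‖ ∧
      ‖π u - (k : ℝ) • π x‖ ^ 2 ≤ k * (2 + M ^ 2) := by
    intro k
    induction k with
    | zero =>
      intro _
      refine ⟨0, by simp, by simp, by simp⟩
    | succ k ih =>
      intro hk
      obtain ⟨u, hu, hz, he⟩ := ih (by omega)
      set e := π u - (k : ℝ) • π x with hedef
      let ψ : V →L[ℝ] ℝ := -((innerSL ℝ e).comp π)
      obtain ⟨y, hy, hψy, hzy⟩ := daugavet_slice_scaled hD (r • u - x) ψ hδ₀pos hrpos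
      refine ⟨u + y, ?_, ?_, ?_⟩
      · calc ‖u + y‖ ≤ ‖u‖ + ‖y‖ := norm_add_le _ _
          _ ≤ ((k + 1 : ℕ) : ℝ) := by push_cast; linarith
      · have : r • (u + y) - x = (r • u - x) + r • y := by
          rw [smul_add]; abel
        rw [this]
        push_cast
        linarith
      · have hψx : ψ x ≤ ‖ψ‖ := by
          have h1 := ψ.le_opNorm x
          have h2 : |ψ x| ≤ ‖ψ‖ * ‖x‖ := by simpa [Real.norm_eq_abs] using h1
          have h3 : ‖ψ‖ * ‖x‖ ≤ ‖ψ‖ := by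
            nlinarith [norm_nonneg ψ, norm_nonneg x]
          exact (le_abs_self _).trans (h2.trans h3)
        have hval : ∀ v, ψ v = -(inner ℝ e (π v)) := fun v => by
          simp [ψ]
        have hin : inner ℝ e (π y - π x) ≤ δ₀ := by
          rw [inner_sub_right]
          have h1 := hval y
          have h2 := hval x
          linarith
        have hey : π (u + y) - ((k + 1 : ℕ) : ℝ) • π x = e + (π y - π x) := by
          rw [map_add, hedef]
          push_cast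
          rw [add_smul, one_smul]
          abel
        rw [hey]
        have hexp : ‖e + (π y - π x)‖ ^ 2
            = ‖e‖ ^ 2 + 2 * inner ℝ e (π y - π x) + ‖π y - π x‖ ^ 2 :=
          norm_add_sq_real _ _
        have hbd : ‖π y - π x‖ ≤ M := by
          have h1 : ‖π y - π x‖ ≤ ‖π y‖ + ‖π x‖ := norm_sub_le _ _
          have h2 : ‖π y‖ ≤ ‖π‖ * ‖y‖ := π.le_opNorm y
          have h3 : ‖π x‖ ≤ ‖π‖ * ‖x‖ := π.le_opNorm x
          have h4 : ‖π‖ * ‖y‖ ≤ ‖π‖ := by nlinarith [norm_nonneg π, norm_nonneg y]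
          have h5 : ‖π‖ * ‖x‖ ≤ ‖π‖ := by nlinarith [norm_nonneg π, norm_nonneg x]
          rw [hM]; linarith
        have hbd2 : ‖π y - π x‖ ^ 2 ≤ M ^ 2 := by
          gcongr
        have hδ₀1 : δ₀ ≤ 1 := min_le_left _ _
        rw [hexp]
        push_cast
        nlinarith
  obtain ⟨u, hu, hz, he⟩ := key n le_rfl
  have hrn : (n : ℝ) * r = 1 := by rw [hr]; field_simp
  have hδn : (n : ℝ) * δ₀ ≤ δ := by
    have : δ₀ ≤ δ / n := min_le_right _ _
    calc (n : ℝ) * δ₀ ≤ n * (δ / n) := by gcongr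
      _ = δ := by field_simp
  refine ⟨r • u, ?_, ?_, ?_⟩
  · rw [norm_smul, Real.norm_of_nonneg hrpos.le]
    calc r * ‖u‖ ≤ r * n := by gcongr
      _ = 1 := by rw [mul_comm, hrn]
  · -- closeness
    apply exists_mem_close_of_quot S
    have h1 : π (r • u - x) = r • (π u - (n : ℝ) • π x) := by
      rw [map_sub, map_smul, smul_sub, smul_smul, mul_comm r, hrn, one_smul]
    have h2 : (Submodule.Quotient.mk (r • u - x) : V ⧸ S)
        = T.symm.toContinuousLinearMap (π (r • u - x)) := by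
      simp [π, mkL]
    rw [h2, h1]
    have h3 : ‖π u - (n : ℝ) • π x‖ ≤ Real.sqrt (n * (2 + M ^ 2)) :=
      Real.le_sqrt_of_sq_le he
    have h4 : Real.sqrt (n * (2 + M ^ 2)) = Real.sqrt n * Real.sqrt (2 + M ^ 2) :=
      Real.sqrt_mul (Nat.cast_nonneg _) _
    have hsq : Real.sqrt n * Real.sqrt n = n := Real.mul_self_sqrt hnR.le
    have hsqpos : 0 < Real.sqrt n := Real.sqrt_pos.2 hnR
    calc ‖T.symm.toContinuousLinearMap (r • (π u - (n : ℝ) • π x))‖
        ≤ ‖T.symm.toContinuousLinearMap‖ * ‖r • (π u - (n : ℝ) • π x)‖ :=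
          ContinuousLinearMap.le_opNorm _ _
      _ ≤ A * ‖r • (π u - (n : ℝ) • π x)‖ := by
          gcongr
          rw [hA]; linarith
      _ = A * (r * ‖π u - (n : ℝ) • π x‖) := by
          rw [norm_smul, Real.norm_of_nonneg hrpos.le]
      _ ≤ A * (r * (Real.sqrt n * Real.sqrt (2 + M ^ 2))) := by
          rw [← h4]
          gcongr
      _ < δ := by
          have h5 : A * Real.sqrt (2 + M ^ 2) < Real.sqrt n * δ := by
            rw [div_lt_iff₀ hδ] at hn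
            linarith
          have h6 : A * (r * (Real.sqrt n * Real.sqrt (2 + M ^ 2)))
              = r * Real.sqrt n * (A * Real.sqrt (2 + M ^ 2)) := by ring
          rw [h6]
          have h7 : r * Real.sqrt n * (Real.sqrt n * δ) = δ := by
            have : r * Real.sqrt n * (Real.sqrt n * δ) = r * (Real.sqrt n * Real.sqrt n) * δ := by
              ring
            rw [this, hsq, mul_comm r, hrn, one_mul]
          have h8 : 0 < r * Real.sqrt n := by positivity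
          calc r * Real.sqrt n * (A * Real.sqrt (2 + M ^ 2))
              < r * Real.sqrt n * (Real.sqrt n * δ) := by gcongr
            _ = δ := h7
  · have := hz
    rw [hrn] at this
    linarith

/-- The elementary norm identity behind the upper bounds. -/
lemma exists_good_y (hD : HasDaugavetProperty V) {t : ℝ} (ht : 0 < t) (x : V) (hx : ‖x‖ = 1)
    (S : Submodule ℝ V) (hScl : IsClosed (S : Set V)) (hfd : FiniteDimensional ℝ (V ⧸ S))
    {η : ℝ} (hη : 0 < η) :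
    ∃ y ∈ S, ‖y‖ = 1 ∧ ‖x + t • y‖ ≤ max 1 (t - 1) + η ∧ ‖x - t • y‖ ≤ 1 + t + η := by
  set δ : ℝ := min (1 / 4) (η / (4 * t)) with hδdef
  have hδ : 0 < δ := lt_min (by norm_num) (by positivity)
  have hδ1 : δ ≤ 1 / 4 := min_le_left _ _
  have hδ2 : t * δ ≤ η / 4 := by
    have : δ ≤ η / (4 * t) := min_le_right _ _
    calc t * δ ≤ t * (η / (4 * t)) := by gcongr
      _ = η / 4 := by field_simp
  obtain ⟨w, hw, ⟨s, hs, hsclose⟩, hfar⟩ :=
    daugavet_weak_nbhd hD S hScl hfd x hx.le hδ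
  rw [hx] at hfar
  set y₀ : V := (1 / 2 : ℝ) • (w - x) with hy₀
  set s₀ : V := (1 / 2 : ℝ) • s with hs₀
  have hs₀S : s₀ ∈ S := S.smul_mem _ hs
  have h12 : ‖(1 / 2 : ℝ)‖ = 1 / 2 := by norm_num
  have hys : ‖y₀ - s₀‖ ≤ δ / 2 := by
    have : y₀ - s₀ = (1 / 2 : ℝ) • ((w - x) - s) := by
      rw [hy₀, hs₀, ← smul_sub]
    rw [this, norm_smul, h12]
    linarith
  have hy₀up : ‖y₀‖ ≤ 1 := by
    rw [hy₀, norm_smul, h12]
    have : ‖w - x‖ ≤ ‖w‖ + ‖x‖ := norm_sub_le _ _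
    linarith
  have hy₀low : 1 - δ / 2 ≤ ‖y₀‖ := by
    rw [hy₀, norm_smul, h12]
    linarith
  have hs₀up : ‖s₀‖ ≤ 1 + δ / 2 := by
    have : ‖s₀‖ ≤ ‖y₀‖ + ‖y₀ - s₀‖ := by
      have := norm_sub_le y₀ (y₀ - s₀)
      simpa using this
    linarith
  have hs₀low : 1 - δ ≤ ‖s₀‖ := by
    have : ‖y₀‖ ≤ ‖s₀‖ + ‖y₀ - s₀‖ := by
      have := norm_add_le s₀ (y₀ - s₀)
      simpa using this
    linarith
  have hs₀pos : 0 < ‖s₀‖ := by linarith
  set y : V := ‖s₀‖⁻¹ • s₀ with hy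
  have hyS : y ∈ S := S.smul_mem _ hs₀S
  have hynorm : ‖y‖ = 1 := by
    rw [hy, norm_smul, norm_inv, norm_norm, inv_mul_cancel₀ hs₀pos.ne']
  have hyy₀ : ‖y - y₀‖ ≤ 2 * δ := by
    have h1 : y - s₀ = (‖s₀‖⁻¹ - 1) • s₀ := by
      rw [hy, sub_smul, one_smul]
    have h2 : ‖y - s₀‖ = |1 - ‖s₀‖| := by
      rw [h1, norm_smul, Real.norm_eq_abs]
      have : |‖s₀‖⁻¹ - 1| * ‖s₀‖ = |(‖s₀‖⁻¹ - 1) * ‖s₀‖| := by
        rw [abs_mul, abs_of_pos hs₀pos]
      rw [this]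
      congr 1
      field_simp
    have h3 : |1 - ‖s₀‖| ≤ δ := by
      rw [abs_le]; constructor <;> linarith
    have h4 : ‖y - y₀‖ ≤ ‖y - s₀‖ + ‖s₀ - y₀‖ := by
      have := norm_add_le (y - s₀) (s₀ - y₀)
      simpa using this
    rw [norm_sub_rev s₀ y₀] at h4
    linarith
  have hplus : ‖x + t • y₀‖ ≤ max 1 (t - 1) := by
    have h1 : x + t • y₀ = (1 - t / 2) • x + (t / 2) • w := by
      rw [hy₀, smul_smul, sub_smul, one_smul, smul_sub]
      have : t * (1 / 2) = t / 2 := by ring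
      rw [this]
      abel
    rw [h1]
    have h2 : ‖(1 - t / 2) • x + (t / 2) • w‖ ≤ |1 - t / 2| * 1 + t / 2 * 1 := by
      refine (norm_add_le _ _).trans ?_
      rw [norm_smul, norm_smul, hx, Real.norm_eq_abs, Real.norm_of_nonneg (by positivity)]
      gcongr
    refine h2.trans ?_
    rcases le_total t 2 with h | h
    · rw [abs_of_nonneg (by linarith)]
      exact le_max_of_le_left (by linarith)
    · rw [abs_of_nonpos (by linarith)]
      exact le_max_of_le_right (by linarith)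
  have hminus : ‖x - t • y₀‖ ≤ 1 + t := by
    have h1 : x - t • y₀ = (1 + t / 2) • x - (t / 2) • w := by
      rw [hy₀, smul_smul, add_smul, one_smul, smul_sub]
      have : t * (1 / 2) = t / 2 := by ring
      rw [this]
      abel
    rw [h1]
    refine (norm_sub_le _ _).trans ?_
    rw [norm_smul, norm_smul, hx, Real.norm_of_nonneg (by positivity),
      Real.norm_of_nonneg (by positivity)]
    have : t / 2 * ‖w‖ ≤ t / 2 * 1 := by gcongr
    linarith
  have herr : ‖t • (y - y₀)‖ ≤ η / 2 := by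
    rw [norm_smul, Real.norm_of_nonneg ht.le]
    nlinarith
  refine ⟨y, hyS, hynorm, ?_, ?_⟩
  · have : x + t • y = (x + t • y₀) + t • (y - y₀) := by
      rw [smul_sub]; abel
    rw [this]
    refine (norm_add_le _ _).trans ?_
    linarith
  · have : x - t • y = (x - t • y₀) - t • (y - y₀) := by
      rw [smul_sub]; abel
    rw [this]
    refine (norm_sub_le _ _).trans ?_
    linarith


/-- One step of a bounded tree in a Daugavet space. -/
lemma daugavet_tree_step (hD : HasDaugavetProperty V) (x : V) (hx : ‖x‖ ≤ 1)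
    (S : Submodule ℝ V) (hScl : IsClosed (S : Set V)) (hfd : FiniteDimensional ℝ (V ⧸ S))
    {δ : ℝ} (hδ : 0 < δ) :
    ∃ y, (1 / 3 : ℝ) ≤ ‖y‖ ∧ ‖x + y‖ ≤ 1 ∧ ∃ s ∈ S, ‖y - s‖ < δ := by
  set δ' : ℝ := min δ (1 / 3) with hδ'
  have hδ'pos : 0 < δ' := lt_min hδ (by norm_num)
  obtain ⟨w, hw, ⟨s, hs, hclose⟩, hfar⟩ := daugavet_weak_nbhd hD S hScl hfd x hx hδ'pos
  have hδ'3 : δ' ≤ 1 / 3 := min_le_right _ _
  have h12 : ‖(1 / 2 : ℝ)‖ = 1 / 2 := by norm_num
  refine ⟨(1 / 2 : ℝ) • (w - x), ?_, ?_, (1 / 2 : ℝ) • s, S.smul_mem _ hs, ?_⟩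
  · rw [norm_smul, h12]
    have := norm_nonneg x
    linarith
  · have : x + (1 / 2 : ℝ) • (w - x) = (1 / 2 : ℝ) • x + (1 / 2 : ℝ) • w := by
      rw [smul_sub]
      have : x = (1 / 2 : ℝ) • x + (1 / 2 : ℝ) • x := by
        rw [← add_smul]; norm_num
      nth_rewrite 1 [this]
      abel
    rw [this]
    refine (norm_add_le _ _).trans ?_
    rw [norm_smul, norm_smul, h12]
    linarith
  · have : (1 / 2 : ℝ) • (w - x) - (1 / 2 : ℝ) • s = (1 / 2 : ℝ) • ((w - x) - s) := by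
      rw [← smul_sub]
    rw [this, norm_smul, h12]
    have hδ'δ : δ' ≤ δ := min_le_left _ _
    linarith

end Crest.Agent.Lib.AUC
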