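import Mathlib
import Crest.Prelude.Def_Diamond

/-!
Distortion of the countably branching diamond graphs in a space with the `(β)`-like midpoint
property, by the standard induction through the middle vertices.
-/

set_option autoImplicit false

namespace Crest.Agent.Lib.AUC

open Crest.AnalysisR

lemma src_ne_tgt : ∀ (k : ℕ) (e : DiamondEdge k), diamondSrc k e ≠ diamondTgt k e
  | 0, _ => by simp [diamondSrc, diamondTgt]
  | k + 1, (e, i, b) => by cases b <;> simp [diamondSrc, diamondTgt]

lemma adj_of_edge (k : ℕ) (e : DiamondEdge k) :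
    (diamondGraph k).Adj (diamondSrc k e) (diamondTgt k e) := by
  rw [diamondGraph, SimpleGraph.fromRel_adj]
  exact ⟨src_ne_tgt k e, Or.inl ⟨e, rfl, rfl⟩⟩

lemma adj_elim {k : ℕ} {u v : DiamondVertex k} (h : (diamondGraph k).Adj u v) :
    ∃ e, (diamondSrc k e = u ∧ diamondTgt k e = v) ∨ (diamondSrc k e = v ∧ diamondTgt k e = u) := by
  rw [diamondGraph, SimpleGraph.fromRel_adj] at h
  rcases h.2 with ⟨e, h1, h2⟩ | ⟨e, h1, h2⟩
  · exact ⟨e, Or.inl ⟨h1, h2⟩⟩
  · exact ⟨e, Or.inr ⟨h1, h2⟩⟩

/-- old vertices -/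
def inlV {k : ℕ} (x : DiamondVertex k) : DiamondVertex (k + 1) := Sum.inl x
/-- middle vertices -/
def midV {k : ℕ} (e : DiamondEdge k) (i : ℕ) : DiamondVertex (k + 1) := Sum.inr (e, i)
/-- first half of a two-edge path -/
def loE {k : ℕ} (e : DiamondEdge k) (i : ℕ) : DiamondEdge (k + 1) := (e, i, false)
/-- second half of a two-edge path -/
def hiE {k : ℕ} (e : DiamondEdge k) (i : ℕ) : DiamondEdge (k + 1) := (e, i, true)

lemma src_lo {k : ℕ} (e : DiamondEdge k) (i : ℕ) :
    diamondSrc (k + 1) (loE e i) = inlV (diamondSrc k e) := rfl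
lemma tgt_lo {k : ℕ} (e : DiamondEdge k) (i : ℕ) :
    diamondTgt (k + 1) (loE e i) = midV e i := rfl
lemma src_hi {k : ℕ} (e : DiamondEdge k) (i : ℕ) :
    diamondSrc (k + 1) (hiE e i) = midV e i := rfl
lemma tgt_hi {k : ℕ} (e : DiamondEdge k) (i : ℕ) :
    diamondTgt (k + 1) (hiE e i) = inlV (diamondTgt k e) := rfl

lemma adj_lo {k : ℕ} (e : DiamondEdge k) (i : ℕ) :
    (diamondGraph (k + 1)).Adj (inlV (diamondSrc k e)) (midV e i) :=
  adj_of_edge (k + 1) (loE e i)

lemma adj_hi {k : ℕ} (e : DiamondEdge k) (i : ℕ) :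
    (diamondGraph (k + 1)).Adj (midV e i) (inlV (diamondTgt k e)) :=
  adj_of_edge (k + 1) (hiE e i)

lemma edge_cases {k : ℕ} (e' : DiamondEdge (k + 1)) : ∃ e i, e' = loE e i ∨ e' = hiE e i := by
  obtain ⟨e, i, b⟩ := e'
  refine ⟨e, i, ?_⟩
  cases b
  · exact Or.inl rfl
  · exact Or.inr rfl

lemma vertex_cases {k : ℕ} (u : DiamondVertex (k + 1)) :
    (∃ x, u = inlV x) ∨ (∃ e i, u = midV e i) := by
  rcases (u : DiamondVertex k ⊕ (DiamondEdge k × ℕ)) with x | ⟨e, i⟩
  · exact Or.inl ⟨x, rfl⟩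
  · exact Or.inr ⟨e, i, rfl⟩

lemma reachable_all : ∀ (k : ℕ) (u v : DiamondVertex k), (diamondGraph k).Reachable u v := by
  intro k
  induction k with
  | zero =>
    have h : (diamondGraph 0).Reachable (false : DiamondVertex 0) (true : DiamondVertex 0) :=
      (adj_of_edge 0 ()).reachable
    intro u v
    change Bool at u
    change Bool at v
    cases u <;> cases v
    · exact SimpleGraph.Reachable.refl _
    · exact h
    · exact h.symm
    · exact SimpleGraph.Reachable.refl _
  | succ k ih =>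
    have h1 : ∀ a b : DiamondVertex k, (diamondGraph k).Adj a b →
        (diamondGraph (k + 1)).Reachable (inlV a) (inlV b) := by
      intro a b hab
      obtain ⟨e, ⟨rfl, rfl⟩ | ⟨rfl, rfl⟩⟩ := adj_elim hab
      · exact (adj_lo e 0).reachable.trans (adj_hi e 0).reachable
      · exact ((adj_lo e 0).reachable.trans (adj_hi e 0).reachable).symm
    have h2 : ∀ a b : DiamondVertex k, (diamondGraph (k + 1)).Reachable (inlV a) (inlV b) := by
      intro a b
      obtain ⟨w⟩ := ih a b
      induction w with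
      | nil => exact SimpleGraph.Reachable.refl _
      | cons hadj _ ih' => exact (h1 _ _ hadj).trans ih'
    have h3 : ∀ u : DiamondVertex (k + 1), ∃ x, (diamondGraph (k + 1)).Reachable u (inlV x) := by
      intro u
      rcases vertex_cases u with ⟨x, rfl⟩ | ⟨e, i, rfl⟩
      · exact ⟨x, SimpleGraph.Reachable.refl _⟩
      · exact ⟨diamondSrc k e, (adj_lo e i).reachable.symm⟩
    intro u v
    obtain ⟨x, hx⟩ := h3 u
    obtain ⟨y, hy⟩ := h3 v
    exact hx.trans ((h2 x y).trans hy.symm)

lemma dist_triangle' {k : ℕ} (u v w : DiamondVertex k) :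
    diamondDist k u w ≤ diamondDist k u v + diamondDist k v w := by
  have hc : (diamondGraph k).Connected := by
    haveI : Nonempty (DiamondVertex k) := ⟨u⟩
    exact ⟨reachable_all k⟩
  exact hc.dist_triangle

lemma dist_edge {k : ℕ} (e : DiamondEdge k) : diamondDist k (diamondSrc k e) (diamondTgt k e) = 1 :=
  SimpleGraph.dist_eq_one_iff_adj.2 (adj_of_edge k e)

lemma dist_comm' {k : ℕ} (u v : DiamondVertex k) : diamondDist k u v = diamondDist k v u :=
  SimpleGraph.dist_comm

/-- a function that changes by at most one along edges is one-Lipschitz for the distance -/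
lemma lipschitz_of_adj {k : ℕ} (φ : DiamondVertex k → ℝ)
    (h : ∀ e, |φ (diamondSrc k e) - φ (diamondTgt k e)| ≤ 1) (u v : DiamondVertex k) :
    |φ u - φ v| ≤ diamondDist k u v := by
  obtain ⟨w, hw⟩ := (reachable_all k u v).exists_walk_length_eq_dist
  unfold diamondDist
  rw [← hw]
  clear hw
  induction w with
  | nil => simp
  | @cons a b c hadj p ih =>
    have h1 : |φ a - φ b| ≤ 1 := by
      obtain ⟨e, ⟨rfl, rfl⟩ | ⟨rfl, rfl⟩⟩ := adj_elim hadj
      · exact h e
      · rw [abs_sub_comm]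
        exact h e
    have h2 : |φ a - φ c| ≤ |φ a - φ b| + |φ b - φ c| := abs_sub_le _ _ _
    rw [SimpleGraph.Walk.length_cons]
    push_cast
    linarith

/-- old vertices get pushed apart by a factor two -/
lemma two_mul_dist_le {k : ℕ} (u v : DiamondVertex k) :
    2 * (diamondDist k u v : ℝ) ≤ diamondDist (k + 1) (inlV u) (inlV v) := by
  let φ : DiamondVertex (k + 1) → ℝ := fun z =>
    Sum.elim (fun x : DiamondVertex k => 2 * (diamondDist k u x : ℝ))
      (fun p : DiamondEdge k × ℕ =>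
        (diamondDist k u (diamondSrc k p.1) : ℝ) + diamondDist k u (diamondTgt k p.1))
      (z : DiamondVertex k ⊕ (DiamondEdge k × ℕ))
  have hφ1 : ∀ x, φ (inlV x) = 2 * (diamondDist k u x : ℝ) := fun x => rfl
  have hφ2 : ∀ e i, φ (midV e i) =
      (diamondDist k u (diamondSrc k e) : ℝ) + diamondDist k u (diamondTgt k e) := fun e i => rfl
  have hd : ∀ e, |(diamondDist k u (diamondSrc k e) : ℝ) - diamondDist k u (diamondTgt k e)| ≤ 1 := by
    intro e
    have h1 := dist_triangle' u (diamondSrc k e) (diamondTgt k e)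
    have h2 := dist_triangle' u (diamondTgt k e) (diamondSrc k e)
    rw [dist_edge] at h1
    rw [dist_comm' (diamondTgt k e), dist_edge] at h2
    have h1' : (diamondDist k u (diamondTgt k e) : ℝ) ≤ diamondDist k u (diamondSrc k e) + 1 := by
      exact_mod_cast h1
    have h2' : (diamondDist k u (diamondSrc k e) : ℝ) ≤ diamondDist k u (diamondTgt k e) + 1 := by
      exact_mod_cast h2
    rw [abs_le]
    constructor <;> linarith
  have hlip := lipschitz_of_adj φ (fun e' => by
    obtain ⟨e, i, rfl | rfl⟩ := edge_cases e'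
    · rw [src_lo, tgt_lo, hφ1, hφ2]
      have : 2 * (diamondDist k u (diamondSrc k e) : ℝ) -
          ((diamondDist k u (diamondSrc k e) : ℝ) + diamondDist k u (diamondTgt k e))
          = (diamondDist k u (diamondSrc k e) : ℝ) - diamondDist k u (diamondTgt k e) := by ring
      rw [this]
      exact hd e
    · rw [src_hi, tgt_hi, hφ1, hφ2]
      have : (diamondDist k u (diamondSrc k e) : ℝ) + diamondDist k u (diamondTgt k e)
          - 2 * (diamondDist k u (diamondTgt k e) : ℝ)
          = (diamondDist k u (diamondSrc k e) : ℝ) - diamondDist k u (diamondTgt k e) := by ring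
      rw [this]
      exact hd e) (inlV u) (inlV v)
  rw [hφ1, hφ1, abs_sub_comm] at hlip
  have h0 : diamondDist k u u = 0 := SimpleGraph.dist_self
  rw [h0] at hlip
  have h2 : (0 : ℝ) ≤ diamondDist k u v := Nat.cast_nonneg _
  rw [abs_of_nonneg (by simp)] at hlip
  simpa using hlip

/-- two middle vertices on the same edge are at distance at least two -/
lemma two_le_dist_mid {k : ℕ} (e : DiamondEdge k) {i l : ℕ} (h : i ≠ l) :
    (2 : ℝ) ≤ diamondDist (k + 1) (midV e i) (midV e l) := by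
  have hne : midV e i ≠ midV e l := by
    intro hh
    have : (Sum.inr (e, i) : DiamondVertex k ⊕ (DiamondEdge k × ℕ)) = Sum.inr (e, l) := hh
    simp only [Sum.inr.injEq, Prod.mk.injEq, true_and] at this
    exact h this
  have h0 : diamondDist (k + 1) (midV e i) (midV e l) ≠ 0 := by
    intro hz
    exact hne (((reachable_all (k + 1) _ _).dist_eq_zero_iff).1 hz)
  have h1 : diamondDist (k + 1) (midV e i) (midV e l) ≠ 1 := by
    intro hz
    have hadj := SimpleGraph.dist_eq_one_iff_adj.1 hz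
    obtain ⟨e', h' | h'⟩ := adj_elim hadj
    · obtain ⟨e'', j, rfl | rfl⟩ := edge_cases e'
      · have : inlV (diamondSrc k e'') = midV e i := h'.1
        exact absurd this (by simp [inlV, midV])
      · have : inlV (diamondTgt k e'') = midV e l := h'.2
        exact absurd this (by simp [inlV, midV])
    · obtain ⟨e'', j, rfl | rfl⟩ := edge_cases e'
      · have : inlV (diamondSrc k e'') = midV e l := h'.1
        exact absurd this (by simp [inlV, midV])
      · have : inlV (diamondTgt k e'') = midV e i := h'.2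
        exact absurd this (by simp [inlV, midV])
  have h2 : 2 ≤ diamondDist (k + 1) (midV e i) (midV e l) := by omega
  exact_mod_cast h2

section main

variable {X : Type*} [NormedAddCommGroup X] [NormedSpace ℝ X]

/-- The induction over the depth of the diamond. -/
theorem diamond_lower
    (hmid : ∀ (a b : X) (w : ℕ → X) (σ : ℝ), 0 ≤ σ → (∀ i l, i ≠ l → σ ≤ ‖w i - w l‖) →
      ∀ ε : ℝ, 0 < ε → ∃ i, ‖(1 / 2 : ℝ) • (b - a)‖ ^ 2 + σ ^ 2 / 16 - ε ≤
        max (‖w i - a‖ ^ 2) (‖b - w i‖ ^ 2)) :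
    ∀ (k : ℕ) (f : DiamondVertex k → X) (s : ℝ), 0 < s →
      (∀ u v, s * (diamondDist k u v : ℝ) ≤ ‖f u - f v‖) → ∀ ε : ℝ, 0 < ε →
        ∃ e, s ^ 2 * (1 + (k : ℝ) / 4) - ε ≤ ‖f (diamondSrc k e) - f (diamondTgt k e)‖ ^ 2 := by
  intro k
  induction k with
  | zero =>
    intro f s hs hf ε hε
    refine ⟨(), ?_⟩
    have h1 := hf (diamondSrc 0 ()) (diamondTgt 0 ())
    rw [dist_edge] at h1
    have h2 : s ^ 2 ≤ ‖f (diamondSrc 0 ()) - f (diamondTgt 0 ())‖ ^ 2 := by
      have : s ≤ ‖f (diamondSrc 0 ()) - f (diamondTgt 0 ())‖ := by simpa using h1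
      gcongr
    simp only [Nat.cast_zero, zero_div, add_zero, mul_one]
    linarith
  | succ k ih =>
    intro f s hs hf ε hε
    obtain ⟨e, he⟩ := ih (fun x => f (inlV x)) (2 * s) (by positivity) (by
      intro u v
      have h1 := hf (inlV u) (inlV v)
      have h2 := two_mul_dist_le u v
      have : 2 * s * (diamondDist k u v : ℝ) = s * (2 * (diamondDist k u v : ℝ)) := by ring
      rw [this]
      exact (mul_le_mul_of_nonneg_left h2 hs.le).trans h1) ε hε
    set a := f (inlV (diamondSrc k e)) with ha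
    set b := f (inlV (diamondTgt k e)) with hb
    obtain ⟨i, hi⟩ := hmid a b (fun i => f (midV e i)) (2 * s) (by positivity) (by
      intro i l hil
      have h1 := hf (midV e i) (midV e l)
      have h2 := two_le_dist_mid e hil
      have : 2 * s = s * 2 := by ring
      rw [this]
      exact (mul_le_mul_of_nonneg_left h2 hs.le).trans h1) (3 * ε / 4) (by positivity)
    have hhalf : ‖(1 / 2 : ℝ) • (b - a)‖ ^ 2 = ‖a - b‖ ^ 2 / 4 := by
      rw [norm_smul, norm_sub_rev]
      norm_num
      ring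
    rw [hhalf] at hi
    have hmain : s ^ 2 * (1 + ((k + 1 : ℕ) : ℝ) / 4) - ε ≤
        max (‖f (midV e i) - a‖ ^ 2) (‖b - f (midV e i)‖ ^ 2) := by
      refine le_trans ?_ hi
      push_cast
      have : (2 * s) ^ 2 * (1 + (k : ℝ) / 4) - ε ≤ ‖a - b‖ ^ 2 := he
      nlinarith
    rcases le_max_iff.1 hmain with h | h
    · refine ⟨loE e i, ?_⟩
      rw [src_lo, tgt_lo, norm_sub_rev]
      exact h
    · refine ⟨hiE e i, ?_⟩
      rw [src_hi, tgt_hi, norm_sub_rev]
      exact h

end main

open Crest.AnalysisR in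
/-- The bundled distortion bound. -/
theorem diamond_distortion (E : RealBanach)
    (hmid : letI := E.normed; letI := E.space
      ∀ (a b : E.X) (w : ℕ → E.X) (σ : ℝ), 0 ≤ σ → (∀ i l, i ≠ l → σ ≤ ‖w i - w l‖) →
      ∀ ε : ℝ, 0 < ε → ∃ i, ‖(1 / 2 : ℝ) • (b - a)‖ ^ 2 + σ ^ 2 / 16 - ε ≤
        max (‖w i - a‖ ^ 2) (‖b - w i‖ ^ 2))
    (k : ℕ) (f : DiamondVertex k → E.X) (D : ℝ) (h : E.HasDistortionLE k f D) :
    1 + (k : ℝ) / 4 ≤ D ^ 2 := by
  letI := E.normed
  letI := E.space
  obtain ⟨s, hs, hf⟩ := h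
  have hs2 : 0 < s ^ 2 := by positivity
  have key : ∀ ε : ℝ, 0 < ε → s ^ 2 * (1 + (k : ℝ) / 4) - ε ≤ (D * s) ^ 2 := by
    intro ε hε
    obtain ⟨e, he⟩ := diamond_lower hmid k f s hs (fun u v => (hf u v).1) ε hε
    have h1 := (hf (diamondSrc k e) (diamondTgt k e)).2
    rw [dist_edge] at h1
    simp only [Nat.cast_one, mul_one] at h1
    have h2 : ‖f (diamondSrc k e) - f (diamondTgt k e)‖ ^ 2 ≤ (D * s) ^ 2 := by
      gcongr
    linarith
  have h3 : s ^ 2 * (1 + (k : ℝ) / 4) ≤ (D * s) ^ 2 :=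
    le_of_forall_pos_le_add (fun ε hε => by linarith [key ε hε])
  rw [mul_pow, mul_comm (D ^ 2)] at h3
  exact le_of_mul_le_mul_left h3 hs2

end Crest.Agent.Lib.AUC
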