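import Mathlib

/-!
General facts about the `ℓ²`-sum `lp G 2` of a sequence of Banach spaces: the norm identity, a
Minkowski-type transfer of inequalities from the components to the sum, and reflexivity of the sum
of reflexive spaces.
-/

set_option autoImplicit false

namespace Crest.Agent.Lib.AUC

open NormedSpace

section

variable {G : ℕ → Type} [∀ k, NormedAddCommGroup (G k)] [∀ k, NormedSpace ℝ (G k)]

lemma two_toReal : (2 : ENNReal).toReal = 2 := by simp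

lemma hasSum_sq (u : lp G 2) : HasSum (fun k => ‖u k‖ ^ 2) (‖u‖ ^ 2) := by
  have h := lp.hasSum_norm (p := 2) (by simp) u
  simp only [two_toReal, Real.rpow_two] at h
  exact h

lemma sum_sq_le (u : lp G 2) (F : Finset ℕ) : ∑ k ∈ F, ‖u k‖ ^ 2 ≤ ‖u‖ ^ 2 :=
  sum_le_hasSum F (fun _ _ => by positivity) (hasSum_sq u)

/-- Transfer of a square-function inequality from components to the `ℓ²`-sum. -/
lemma lp2_lift (a b u w : lp G 2)
    (h : ∀ k, Real.sqrt (‖a k‖ ^ 2 + ‖b k‖ ^ 2 / 4) ≤ (‖u k‖ + ‖w k‖) / 2) :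
    Real.sqrt (‖a‖ ^ 2 + ‖b‖ ^ 2 / 4) ≤ (‖u‖ + ‖w‖) / 2 := by
  have hT : 0 ≤ (‖u‖ + ‖w‖) / 2 := by positivity
  refine Real.sqrt_le_iff.2 ⟨hT, ?_⟩
  have hs : HasSum (fun k => ‖a k‖ ^ 2 + ‖b k‖ ^ 2 / 4) (‖a‖ ^ 2 + ‖b‖ ^ 2 / 4) :=
    (hasSum_sq a).add ((hasSum_sq b).div_const 4)
  refine hasSum_le_of_sum_le hs (fun F => ?_)
  have h1 : ∑ k ∈ F, (‖a k‖ ^ 2 + ‖b k‖ ^ 2 / 4) ≤ ∑ k ∈ F, ((‖u k‖ + ‖w k‖) / 2) ^ 2 :=
    Finset.sum_le_sum (fun k _ => (Real.sqrt_le_iff.1 (h k)).2)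
  refine h1.trans ?_
  have h2 : ∑ k ∈ F, ((‖u k‖ + ‖w k‖) / 2) ^ 2 =
      (∑ k ∈ F, ‖u k‖ ^ 2 + ∑ k ∈ F, ‖w k‖ ^ 2 + 2 * ∑ k ∈ F, ‖u k‖ * ‖w k‖) / 4 := by
    rw [Finset.mul_sum, ← Finset.sum_add_distrib, ← Finset.sum_add_distrib, Finset.sum_div]
    exact Finset.sum_congr rfl (fun k _ => by ring)
  have h3 : ∑ k ∈ F, ‖u k‖ * ‖w k‖ ≤ ‖u‖ * ‖w‖ := by
    refine (Real.sum_mul_le_sqrt_mul_sqrt F _ _).trans ?_
    have h4 : Real.sqrt (∑ k ∈ F, ‖u k‖ ^ 2) ≤ ‖u‖ :=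
      Real.sqrt_le_iff.2 ⟨norm_nonneg _, sum_sq_le u F⟩
    have h5 : Real.sqrt (∑ k ∈ F, ‖w k‖ ^ 2) ≤ ‖w‖ :=
      Real.sqrt_le_iff.2 ⟨norm_nonneg _, sum_sq_le w F⟩
    gcongr
  rw [h2]
  have h6 := sum_sq_le u F
  have h7 := sum_sq_le w F
  nlinarith

lemma le_sq_of_le_mul_sqrt {A c : ℝ} (hA : 0 ≤ A) (hc : 0 ≤ c) (h : A ≤ c * Real.sqrt A) :
    A ≤ c ^ 2 := by
  rcases hA.eq_or_lt with rfl | hpos
  · positivity
  · have h1 : 0 < Real.sqrt A := Real.sqrt_pos.2 hpos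
    have h2 : Real.sqrt A * Real.sqrt A = A := Real.mul_self_sqrt hA
    have h3 : Real.sqrt A ≤ c := by
      by_contra hlt
      push_neg at hlt
      nlinarith
    nlinarith

lemma eq_of_forall_abs_le {a b C : ℝ} (hC : 0 ≤ C) (h : ∀ ε : ℝ, 0 < ε → |a - b| ≤ ε * C) :
    a = b := by
  by_contra hne
  have hd : 0 < |a - b| := abs_pos.2 (sub_ne_zero.2 hne)
  have h1 := h (|a - b| / (2 * (C + 1))) (by positivity)
  have h2 : |a - b| / (2 * (C + 1)) * C < |a - b| := by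
    rw [div_mul_eq_mul_div, div_lt_iff₀ (by positivity)]
    nlinarith
  linarith

/-- a nearly norming vector in the real case -/
lemma exists_near_norming {Y : Type*} [NormedAddCommGroup Y] [NormedSpace ℝ Y]
    (φ : StrongDual ℝ Y) {δ : ℝ} (hδ : 0 < δ) : ∃ x : Y, ‖x‖ ≤ 1 ∧ ‖φ‖ - δ ≤ φ x := by
  by_cases h : ‖φ‖ - δ < 0
  · exact ⟨0, by simp, by simpa using h.le⟩
  · obtain ⟨x, hx, hr⟩ := φ.exists_lt_apply_of_lt_opNorm (r := ‖φ‖ - δ) (by linarith)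
    rw [Real.norm_eq_abs] at hr
    rcases lt_abs.1 hr with h1 | h1
    · exact ⟨x, hx.le, h1.le⟩
    · refine ⟨-x, by simpa using hx.le, ?_⟩
      rw [map_neg]
      exact h1.le

/-- The components of a functional on the `ℓ²`-sum are square summable, in the finite form. -/
lemma sum_sq_comp_le (ψ : StrongDual ℝ (lp G 2)) (F : Finset ℕ) :
    ∑ k ∈ F, ‖ψ.comp (lp.singleContinuousLinearMap ℝ G 2 k)‖ ^ 2 ≤ ‖ψ‖ ^ 2 := by
  set p : ℕ → ℝ := fun k => ‖ψ.comp (lp.singleContinuousLinearMap ℝ G 2 k)‖ with hp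
  set A := ∑ k ∈ F, p k ^ 2 with hA
  have hA0 : 0 ≤ A := Finset.sum_nonneg (fun _ _ => by positivity)
  refine le_sq_of_le_mul_sqrt hA0 (norm_nonneg _) ?_
  refine le_of_forall_pos_le_add (fun ε hε => ?_)
  set S := ∑ k ∈ F, p k with hS
  have hS0 : 0 ≤ S := Finset.sum_nonneg (fun _ _ => norm_nonneg _)
  set δ : ℝ := ε / (S + 1) with hδ
  have hδpos : 0 < δ := by positivity
  choose x hx1 hx2 using fun k => exists_near_norming (ψ.comp (lp.singleContinuousLinearMap ℝ G 2 k))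
    hδpos
  set u : lp G 2 := ∑ k ∈ F, lp.single 2 k (p k • x k) with hu
  have hunorm : ‖u‖ ≤ Real.sqrt A := by
    have h1 := lp.norm_sum_single (p := 2) (by simp) (fun k => p k • x k) F
    simp only [two_toReal, Real.rpow_two] at h1
    refine Real.le_sqrt_of_sq_le ?_
    rw [hu, h1]
    refine Finset.sum_le_sum (fun k _ => ?_)
    rw [norm_smul, Real.norm_of_nonneg (norm_nonneg _)]
    have h2 : ‖x k‖ ≤ 1 := hx1 k
    have h3 : 0 ≤ p k := norm_nonneg _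
    have h4 : 0 ≤ ‖x k‖ := norm_nonneg _
    nlinarith [mul_le_mul h2 h2 h4 zero_le_one, sq_nonneg (p k)]
  have hval : ψ u = ∑ k ∈ F, p k * ψ (lp.single 2 k (x k)) := by
    rw [hu, map_sum]
    refine Finset.sum_congr rfl (fun k _ => ?_)
    rw [lp.single_smul, map_smul, smul_eq_mul]
  have hlow : A - δ * S ≤ ψ u := by
    rw [hval, hA, hS, Finset.mul_sum, ← Finset.sum_sub_distrib]
    refine Finset.sum_le_sum (fun k _ => ?_)
    have h1 : p k - δ ≤ ψ (lp.single 2 k (x k)) := hx2 k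
    have h2 : 0 ≤ p k := norm_nonneg _
    nlinarith
  have hup : ψ u ≤ ‖ψ‖ * Real.sqrt A :=
    (le_abs_self _).trans ((ψ.le_opNorm u).trans (by gcongr))
  have hδS : δ * S ≤ ε := by
    rw [hδ, div_mul_eq_mul_div, div_le_iff₀ (by positivity)]
    nlinarith
  linarith

/-- Tails of a functional on the `ℓ²`-sum are small. -/
lemma dual_tail (ψ : StrongDual ℝ (lp G 2)) {ε : ℝ} (hε : 0 < ε) :
    ∃ F₀ : Finset ℕ, ∀ u : lp G 2,
      |ψ u - ∑ k ∈ F₀, ψ (lp.single 2 k (u k))| ≤ ε * ‖u‖ := by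
  set p : ℕ → ℝ := fun k => ‖ψ.comp (lp.singleContinuousLinearMap ℝ G 2 k)‖ with hp
  have hsum : Summable (fun k => p k ^ 2) :=
    summable_of_sum_le (fun _ => by positivity) (fun F => sum_sq_comp_le ψ F)
  obtain ⟨s, hs⟩ := summable_iff_vanishing_norm.1 hsum (ε ^ 2) (by positivity)
  refine ⟨s, fun u => ?_⟩
  have hcomp : ∀ k (x : G k), |ψ (lp.single 2 k x)| ≤ p k * ‖x‖ := fun k x =>
    (ψ.comp (lp.singleContinuousLinearMap ℝ G 2 k)).le_opNorm x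
  have hhas : HasSum (fun k => ψ (lp.single 2 k (u k))) (ψ u) :=
    (lp.hasSum_single (p := 2) (by simp) u).mapL ψ
  have htend : Filter.Tendsto (fun F : Finset ℕ =>
      |∑ k ∈ F, ψ (lp.single 2 k (u k)) - ∑ k ∈ s, ψ (lp.single 2 k (u k))|) Filter.atTop
      (nhds |ψ u - ∑ k ∈ s, ψ (lp.single 2 k (u k))|) :=
    (Filter.Tendsto.sub_const hhas _).abs
  refine le_of_tendsto htend (Filter.eventually_atTop.2 ⟨s, fun F hF => ?_⟩)
  have hF' : s ⊆ F := hF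
  rw [← Finset.sum_sdiff hF', add_sub_cancel_right]
  set t := F \ s with ht
  have hdis : Disjoint t s := Finset.sdiff_disjoint
  have h1 := hs t hdis
  rw [Real.norm_of_nonneg (Finset.sum_nonneg (fun _ _ => by positivity))] at h1
  calc |∑ k ∈ t, ψ (lp.single 2 k (u k))| ≤ ∑ k ∈ t, |ψ (lp.single 2 k (u k))| :=
        Finset.abs_sum_le_sum_abs _ _
    _ ≤ ∑ k ∈ t, p k * ‖u k‖ := Finset.sum_le_sum (fun k _ => hcomp k _)
    _ ≤ Real.sqrt (∑ k ∈ t, p k ^ 2) * Real.sqrt (∑ k ∈ t, ‖u k‖ ^ 2) :=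
        Real.sum_mul_le_sqrt_mul_sqrt _ _ _
    _ ≤ ε * ‖u‖ := by
        have h2 : Real.sqrt (∑ k ∈ t, p k ^ 2) ≤ ε :=
          Real.sqrt_le_iff.2 ⟨hε.le, h1.le⟩
        have h3 : Real.sqrt (∑ k ∈ t, ‖u k‖ ^ 2) ≤ ‖u‖ :=
          Real.sqrt_le_iff.2 ⟨norm_nonneg _, sum_sq_le u t⟩
        gcongr

/-- The `ℓ²`-sum of reflexive spaces is reflexive. -/
theorem lp2_reflexive (hG : ∀ k, Function.Surjective (inclusionInDoubleDual ℝ (G k))) :
    Function.Surjective (inclusionInDoubleDual ℝ (lp G 2)) := by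
  intro Φ
  let π : ∀ k, lp G 2 →L[ℝ] G k := fun k => lp.evalCLM ℝ G 2 k
  have hπ : ∀ k (u : lp G 2), π k u = u k := fun k u => rfl
  have hex : ∀ k, ∃ z : G k, ∀ φ : StrongDual ℝ (G k), Φ (φ.comp (π k)) = φ z := by
    intro k
    let Φk : StrongDual ℝ (StrongDual ℝ (G k)) :=
      Φ.comp ((ContinuousLinearMap.compL ℝ (lp G 2) (G k) ℝ).flip (π k))
    obtain ⟨z, hz⟩ := hG k Φk
    refine ⟨z, fun φ => ?_⟩
    have : Φk φ = φ z := by rw [← hz]; rfl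
    exact this
  choose z hz using hex
  have hbd : ∀ F : Finset ℕ, ∑ k ∈ F, ‖z k‖ ^ 2 ≤ ‖Φ‖ ^ 2 := by
    intro F
    choose g hg1 hg2 using fun k => exists_dual_vector'' ℝ (z k)
    let ψ : StrongDual ℝ (lp G 2) := ∑ k ∈ F, ‖z k‖ • (g k).comp (π k)
    set A := ∑ k ∈ F, ‖z k‖ ^ 2 with hA
    have hA0 : 0 ≤ A := Finset.sum_nonneg (fun _ _ => by positivity)
    have hψval : ∀ u, ψ u = ∑ k ∈ F, ‖z k‖ * g k (u k) := by
      intro u
      simp only [ψ, ContinuousLinearMap.sum_apply, ContinuousLinearMap.smul_apply,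
        ContinuousLinearMap.comp_apply, smul_eq_mul]
      rfl
    have hψ : ‖ψ‖ ≤ Real.sqrt A := by
      refine ContinuousLinearMap.opNorm_le_bound _ (Real.sqrt_nonneg _) (fun u => ?_)
      rw [hψval, Real.norm_eq_abs]
      calc |∑ k ∈ F, ‖z k‖ * g k (u k)| ≤ ∑ k ∈ F, |‖z k‖ * g k (u k)| :=
            Finset.abs_sum_le_sum_abs _ _
        _ ≤ ∑ k ∈ F, ‖z k‖ * ‖u k‖ := by
            refine Finset.sum_le_sum (fun k _ => ?_)
            rw [abs_mul, abs_of_nonneg (norm_nonneg _)]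
            have h1 : |g k (u k)| ≤ ‖g k‖ * ‖u k‖ := (g k).le_opNorm _
            have h2 : ‖g k‖ * ‖u k‖ ≤ 1 * ‖u k‖ := by
              have := hg1 k
              gcongr
            have h3 : 0 ≤ ‖z k‖ := norm_nonneg _
            nlinarith
        _ ≤ Real.sqrt (∑ k ∈ F, ‖z k‖ ^ 2) * Real.sqrt (∑ k ∈ F, ‖u k‖ ^ 2) :=
            Real.sum_mul_le_sqrt_mul_sqrt _ _ _
        _ ≤ Real.sqrt A * ‖u‖ := by
            have h3 : Real.sqrt (∑ k ∈ F, ‖u k‖ ^ 2) ≤ ‖u‖ :=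
              Real.sqrt_le_iff.2 ⟨norm_nonneg _, sum_sq_le u F⟩
            gcongr
    have hval : Φ ψ = A := by
      simp only [ψ, map_sum, map_smul, hz, hg2, smul_eq_mul]
      refine Finset.sum_congr rfl (fun k _ => ?_)
      simp only [RCLike.ofReal_real_eq_id, id]
      ring
    have h1 : A ≤ ‖Φ‖ * Real.sqrt A := by
      have h2 : |Φ ψ| ≤ ‖Φ‖ * ‖ψ‖ := Φ.le_opNorm ψ
      rw [hval] at h2
      refine (le_abs_self _).trans (h2.trans ?_)
      exact mul_le_mul_of_nonneg_left hψ (ContinuousLinearMap.opNorm_nonneg Φ)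
    exact le_sq_of_le_mul_sqrt hA0 (ContinuousLinearMap.opNorm_nonneg Φ) h1
  have hmem : Memℓp z 2 := memℓp_gen' (C := ‖Φ‖ ^ 2) (fun F => by
    simpa only [two_toReal, Real.rpow_two] using hbd F)
  let zz : lp G 2 := ⟨z, hmem⟩
  have hzz : ∀ k, zz k = z k := fun k => rfl
  refine ⟨zz, ContinuousLinearMap.ext (fun ψ => ?_)⟩
  show ψ zz = Φ ψ
  symm
  refine eq_of_forall_abs_le (C := ‖Φ‖ + ‖zz‖) (by positivity) (fun ε hε => ?_)
  obtain ⟨F₀, hF₀⟩ := dual_tail ψ hε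
  let ψ' : StrongDual ℝ (lp G 2) :=
    ∑ k ∈ F₀, (ψ.comp (lp.singleContinuousLinearMap ℝ G 2 k)).comp (π k)
  have hψ' : ∀ u, ψ' u = ∑ k ∈ F₀, ψ (lp.single 2 k (u k)) := by
    intro u
    simp only [ψ', ContinuousLinearMap.sum_apply, ContinuousLinearMap.comp_apply,
      lp.singleContinuousLinearMap_apply]
    rfl
  have hdiff : ‖ψ - ψ'‖ ≤ ε := by
    refine ContinuousLinearMap.opNorm_le_bound _ hε.le (fun u => ?_)
    rw [ContinuousLinearMap.sub_apply, hψ', Real.norm_eq_abs]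
    exact hF₀ u
  have hΦψ' : Φ ψ' = ∑ k ∈ F₀, ψ (lp.single 2 k (zz k)) := by
    simp only [ψ', map_sum, hz, ContinuousLinearMap.comp_apply,
      lp.singleContinuousLinearMap_apply, hzz]
  have h1 : |Φ ψ - Φ ψ'| ≤ ‖Φ‖ * ε := by
    rw [← map_sub]
    refine (Φ.le_opNorm _).trans ?_
    gcongr
  have h2 := hF₀ zz
  rw [← hΦψ'] at h2
  have h3 : |Φ ψ - ψ zz| ≤ |Φ ψ - Φ ψ'| + |Φ ψ' - ψ zz| := abs_sub_le _ _ _
  rw [abs_sub_comm (Φ ψ') (ψ zz)] at h3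
  nlinarith

end

/-- Hilbert spaces are reflexive. -/
theorem hilbert_reflexive (H : Type*) [NormedAddCommGroup H] [InnerProductSpace ℝ H]
    [CompleteSpace H] : Function.Surjective (inclusionInDoubleDual ℝ H) := by
  intro Φ
  let Ψ : StrongDual ℝ H := LinearMap.mkContinuous
    { toFun := fun u => Φ (InnerProductSpace.toDual ℝ H u)
      map_add' := fun a b => by simp
      map_smul' := fun a b => by simp } ‖Φ‖ (fun u => by
        refine (Φ.le_opNorm _).trans ?_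
        simp)
  let h : H := (InnerProductSpace.toDual ℝ H).symm Ψ
  have hh : ∀ u, inner ℝ h u = Φ (InnerProductSpace.toDual ℝ H u) := fun u => by
    simp only [h, InnerProductSpace.toDual_symm_apply]
    rfl
  refine ⟨h, ContinuousLinearMap.ext (fun φ => ?_)⟩
  show φ h = Φ φ
  obtain ⟨v, rfl⟩ := (InnerProductSpace.toDual ℝ H).surjective φ
  rw [← hh, InnerProductSpace.toDual_apply_apply, real_inner_comm]

/-- Reflexivity is invariant under isomorphism. -/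
theorem reflexive_of_equiv {X Y : Type*} [NormedAddCommGroup X] [NormedSpace ℝ X]
    [NormedAddCommGroup Y] [NormedSpace ℝ Y] (T : X ≃L[ℝ] Y)
    (hX : Function.Surjective (inclusionInDoubleDual ℝ X)) :
    Function.Surjective (inclusionInDoubleDual ℝ Y) := by
  intro Φ
  let Φ' : StrongDual ℝ (StrongDual ℝ X) :=
    Φ.comp ((ContinuousLinearMap.compL ℝ Y X ℝ).flip (T.symm : Y →L[ℝ] X))
  obtain ⟨h, hh⟩ := hX Φ'
  refine ⟨T h, ContinuousLinearMap.ext (fun ψ => ?_)⟩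
  show ψ (T h) = Φ ψ
  have h1 : Φ' (ψ.comp (T : X →L[ℝ] Y)) = Φ ψ := by
    show Φ ((ψ.comp (T : X →L[ℝ] Y)).comp (T.symm : Y →L[ℝ] X)) = Φ ψ
    congr 1
    ext y
    simp
  rw [← h1, ← hh]
  rfl

end Crest.Agent.Lib.AUC
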