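import Mathlib
import Crest.Prelude.Def_TreePotentials

/-!
The combination of two bounded potentials on the tree: a test `f` used on a suffix-closed set `S`
and a test `g` used off `S` are merged into two new bounded potentials `hp`, `hm`, agreeing with
`α f` on `S`, with `hp - hm = β g` off `S`, and with coefficients dominated by `α f` and `β g`.
-/

set_option autoImplicit false

namespace Crest.Agent.Lib.AUC

open Crest.AnalysisR.TreePotential

/-- the raising part -/
noncomputable def splitA (c u : ℝ) : ℝ := max (c + min u 0) (max (u - 1) (-1))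
/-- the lowering part -/
noncomputable def splitB (c u : ℝ) : ℝ := max (c - max u 0) (max (-u - 1) (-1))

lemma splitA_zero {c : ℝ} (h : -1 ≤ c) : splitA c 0 = c := by
  unfold splitA
  simp only [max_def, min_def]
  split_ifs <;> linarith

lemma splitB_zero {c : ℝ} (h : -1 ≤ c) : splitB c 0 = c := by
  unfold splitB
  simp only [max_def]
  split_ifs <;> linarith

lemma split_sub {c u : ℝ} (h : -1 ≤ c) : splitA c u - splitB c u = u := by
  unfold splitA splitB
  simp only [max_def, min_def]
  split_ifs <;> linarith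

lemma splitA_bound {c u : ℝ} (h : |c| ≤ 1) (hu : |u| ≤ 2) : |splitA c u| ≤ 1 := by
  rw [abs_le] at h hu ⊢
  obtain ⟨h1, h2⟩ := h
  obtain ⟨h3, h4⟩ := hu
  unfold splitA
  simp only [max_def, min_def]
  split_ifs <;> constructor <;> linarith

lemma splitB_bound {c u : ℝ} (h : |c| ≤ 1) (hu : |u| ≤ 2) : |splitB c u| ≤ 1 := by
  rw [abs_le] at h hu ⊢
  obtain ⟨h1, h2⟩ := h
  obtain ⟨h3, h4⟩ := hu
  unfold splitB
  simp only [max_def]
  split_ifs <;> constructor <;> linarith

lemma splitA_lip (c u v : ℝ) : |splitA c u - splitA c v| ≤ |u - v| := by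
  have hk : ∀ a b c' d : ℝ, |a - c'| ≤ |u - v| → |b - d| ≤ |u - v| →
      |max a b - max c' d| ≤ |u - v| := fun a b c' d h1 h2 =>
    (abs_max_sub_max_le_max a b c' d).trans (max_le h1 h2)
  unfold splitA
  refine hk _ _ _ _ ?_ (hk _ _ _ _ ?_ ?_)
  · have : c + min u 0 - (c + min v 0) = min u 0 - min v 0 := by ring
    rw [this]
    exact abs_min_sub_min_le_max u 0 v 0 |>.trans (max_le le_rfl (by simp))
  · simp
  · simp

lemma splitB_lip (c u v : ℝ) : |splitB c u - splitB c v| ≤ |u - v| := by
  have hk : ∀ a b c' d : ℝ, |a - c'| ≤ |u - v| → |b - d| ≤ |u - v| →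
      |max a b - max c' d| ≤ |u - v| := fun a b c' d h1 h2 =>
    (abs_max_sub_max_le_max a b c' d).trans (max_le h1 h2)
  unfold splitB
  refine hk _ _ _ _ ?_ (hk _ _ _ _ ?_ ?_)
  · have : c - max u 0 - (c - max v 0) = max v 0 - max u 0 := by ring
    rw [this, abs_sub_comm]
    exact abs_max_sub_max_le_max u 0 v 0 |>.trans (max_le le_rfl (by simp))
  · have : -u - 1 - (-v - 1) = -(u - v) := by ring
    rw [this, abs_neg]
  · simp

/-- clamping to `[-1,1]` -/
noncomputable def cl (a : ℝ) : ℝ := max (-1) (min a 1)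

lemma cl_ge (a : ℝ) : -1 ≤ cl a := le_max_left _ _

lemma cl_of_abs {a : ℝ} (h : |a| ≤ 1) : cl a = a := by
  rw [abs_le] at h
  unfold cl
  rw [min_eq_left h.2, max_eq_right h.1]

/-- final upper potential -/
noncomputable def QA (a u : ℝ) : ℝ := a - cl a + splitA (cl a) u
/-- final lower potential -/
noncomputable def QB (a u : ℝ) : ℝ := a - cl a + splitB (cl a) u

lemma QA_zero (a : ℝ) : QA a 0 = a := by
  unfold QA; rw [splitA_zero (cl_ge a)]; ring

lemma QB_zero (a : ℝ) : QB a 0 = a := by
  unfold QB; rw [splitB_zero (cl_ge a)]; ring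

lemma QA_sub_QB (a u : ℝ) : QA a u - QB a u = u := by
  unfold QA QB
  have := split_sub (c := cl a) (u := u) (cl_ge a)
  linarith

lemma QA_lip (a u v : ℝ) : |QA a u - QA a v| ≤ |u - v| := by
  unfold QA
  have : a - cl a + splitA (cl a) u - (a - cl a + splitA (cl a) v)
      = splitA (cl a) u - splitA (cl a) v := by ring
  rw [this]
  exact splitA_lip _ _ _

lemma QB_lip (a u v : ℝ) : |QB a u - QB a v| ≤ |u - v| := by
  unfold QB
  have : a - cl a + splitB (cl a) u - (a - cl a + splitB (cl a) v)
      = splitB (cl a) u - splitB (cl a) v := by ring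
  rw [this]
  exact splitB_lip _ _ _

lemma QA_bound {a u : ℝ} (h : |a| ≤ 1) (hu : |u| ≤ 2) : |QA a u| ≤ 1 := by
  unfold QA
  rw [cl_of_abs h, sub_self, zero_add]
  exact splitA_bound h hu

lemma QB_bound {a u : ℝ} (h : |a| ≤ 1) (hu : |u| ≤ 2) : |QB a u| ≤ 1 := by
  unfold QB
  rw [cl_of_abs h, sub_self, zero_add]
  exact splitB_bound h hu

/-- coefficient family with a given potential -/
def coefOf (Q : List ℕ → ℝ) : List ℕ → ℝ
  | [] => Q []
  | a :: v => Q (a :: v) - Q v

lemma pathPotential_coefOf (Q : List ℕ → ℝ) (v : List ℕ) : pathPotential (coefOf Q) v = Q v := by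
  induction v with
  | nil => rfl
  | cons a v ih =>
    simp only [pathPotential, coefOf, ih]
    ring

section combine

variable (S : List ℕ → Prop) [DecidablePred S]

/-- deepest ancestor in `S` -/
def baseOf : List ℕ → List ℕ
  | [] => []
  | a :: v => if S (a :: v) then a :: v else baseOf v

lemma baseOf_of_mem (h0 : S []) (v : List ℕ) (hv : S v) : baseOf S v = v := by
  cases v with
  | nil => rfl
  | cons a v => simp [baseOf, hv]

lemma baseOf_cons_of_not (a : ℕ) (v : List ℕ) (h : ¬ S (a :: v)) :
    baseOf S (a :: v) = baseOf S v := by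
  simp [baseOf, h]

lemma baseOf_suffix (v : List ℕ) : baseOf S v <:+ v := by
  induction v with
  | nil => exact List.suffix_refl _
  | cons a v ih =>
    by_cases h : S (a :: v)
    · simp [baseOf, h]
    · rw [baseOf_cons_of_not S a v h]
      exact ih.trans (List.suffix_cons a v)

/-- The two merged potentials. -/
noncomputable def mergedA (f g : List ℕ → ℝ) (α β : ℝ) (v : List ℕ) : ℝ :=
  QA (α * pathPotential f (baseOf S v))
    (β * (pathPotential g v - pathPotential g (baseOf S v)))

noncomputable def mergedB (f g : List ℕ → ℝ) (α β : ℝ) (v : List ℕ) : ℝ :=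
  QB (α * pathPotential f (baseOf S v))
    (β * (pathPotential g v - pathPotential g (baseOf S v)))

variable {S}
variable (h0 : S []) (hS : ∀ a v, S (a :: v) → S v) (f g : List ℕ → ℝ) (α β : ℝ)

include h0 in
lemma mergedA_of_mem {v : List ℕ} (hv : S v) :
    mergedA S f g α β v = α * pathPotential f v := by
  unfold mergedA
  rw [baseOf_of_mem S h0 v hv, sub_self, mul_zero, QA_zero]

include h0 in
lemma mergedB_of_mem {v : List ℕ} (hv : S v) :
    mergedB S f g α β v = α * pathPotential f v := by
  unfold mergedB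
  rw [baseOf_of_mem S h0 v hv, sub_self, mul_zero, QB_zero]

include h0 hS in
lemma coefA_of_mem {s : List ℕ} (hs : S s) :
    coefOf (mergedA S f g α β) s = α * f s := by
  cases s with
  | nil =>
    simp only [coefOf]
    rw [mergedA_of_mem h0 f g α β h0]
    rfl
  | cons a v =>
    simp only [coefOf]
    rw [mergedA_of_mem h0 f g α β hs, mergedA_of_mem h0 f g α β (hS a v hs)]
    simp only [pathPotential]
    ring

include h0 hS in
lemma coefB_of_mem {s : List ℕ} (hs : S s) :
    coefOf (mergedB S f g α β) s = α * f s := by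
  cases s with
  | nil =>
    simp only [coefOf]
    rw [mergedB_of_mem h0 f g α β h0]
    rfl
  | cons a v =>
    simp only [coefOf]
    rw [mergedB_of_mem h0 f g α β hs, mergedB_of_mem h0 f g α β (hS a v hs)]
    simp only [pathPotential]
    ring

include h0 in
lemma coef_sub_of_not {s : List ℕ} (hs : ¬ S s) :
    coefOf (mergedA S f g α β) s - coefOf (mergedB S f g α β) s = β * g s := by
  cases s with
  | nil => exact absurd h0 hs
  | cons a v =>
    simp only [coefOf]
    have h1 : mergedA S f g α β (a :: v) - mergedB S f g α β (a :: v)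
        = β * (pathPotential g (a :: v) - pathPotential g (baseOf S (a :: v))) := QA_sub_QB _ _
    have h2 : mergedA S f g α β v - mergedB S f g α β v
        = β * (pathPotential g v - pathPotential g (baseOf S v)) := QA_sub_QB _ _
    rw [baseOf_cons_of_not S a v hs] at h1
    simp only [pathPotential] at h1
    linear_combination h1 - h2

include h0 in
lemma coefA_lip_of_not {s : List ℕ} (hs : ¬ S s) :
    |coefOf (mergedA S f g α β) s| ≤ |β * g s| := by
  cases s with
  | nil => exact absurd h0 hs
  | cons a v =>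
    simp only [coefOf, mergedA]
    rw [baseOf_cons_of_not S a v hs]
    refine (QA_lip _ _ _).trans (le_of_eq ?_)
    congr 1
    simp only [pathPotential]
    ring

include h0 in
lemma coefB_lip_of_not {s : List ℕ} (hs : ¬ S s) :
    |coefOf (mergedB S f g α β) s| ≤ |β * g s| := by
  cases s with
  | nil => exact absurd h0 hs
  | cons a v =>
    simp only [coefOf, mergedB]
    rw [baseOf_cons_of_not S a v hs]
    refine (QB_lip _ _ _).trans (le_of_eq ?_)
    congr 1
    simp only [pathPotential]
    ring

include h0 hS in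
lemma coefA_sq_le (s : List ℕ) :
    coefOf (mergedA S f g α β) s ^ 2 ≤ α ^ 2 * f s ^ 2 + β ^ 2 * g s ^ 2 := by
  by_cases hs : S s
  · rw [coefA_of_mem h0 hS f g α β hs, mul_pow]
    nlinarith [sq_nonneg (β * g s), mul_pow β (g s) 2]
  · have h1 := coefA_lip_of_not h0 f g α β hs
    have h2 : coefOf (mergedA S f g α β) s ^ 2 ≤ (β * g s) ^ 2 := sq_le_sq.2 h1
    rw [mul_pow] at h2
    nlinarith [sq_nonneg (α * f s), mul_pow α (f s) 2]

include h0 hS in
lemma coefB_sq_le (s : List ℕ) :
    coefOf (mergedB S f g α β) s ^ 2 ≤ α ^ 2 * f s ^ 2 + β ^ 2 * g s ^ 2 := by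
  by_cases hs : S s
  · rw [coefB_of_mem h0 hS f g α β hs, mul_pow]
    nlinarith [sq_nonneg (β * g s), mul_pow β (g s) 2]
  · have h1 := coefB_lip_of_not h0 f g α β hs
    have h2 : coefOf (mergedB S f g α β) s ^ 2 ≤ (β * g s) ^ 2 := sq_le_sq.2 h1
    rw [mul_pow] at h2
    nlinarith [sq_nonneg (α * f s), mul_pow α (f s) 2]

lemma mergedA_bound {v : List ℕ} (hα : |α| ≤ 1) (hβ : |β| ≤ 1)
    (h1 : |pathPotential f (baseOf S v)| ≤ 1) (h2 : |pathPotential g v| ≤ 1)
    (h3 : |pathPotential g (baseOf S v)| ≤ 1) : |mergedA S f g α β v| ≤ 1 := by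
  unfold mergedA
  refine QA_bound ?_ ?_
  · rw [abs_mul]
    nlinarith [abs_nonneg α, abs_nonneg (pathPotential f (baseOf S v))]
  · rw [abs_mul]
    have h4 : |pathPotential g v - pathPotential g (baseOf S v)| ≤ 2 := by
      have := abs_sub (pathPotential g v) (pathPotential g (baseOf S v))
      linarith
    nlinarith [abs_nonneg β, abs_nonneg (pathPotential g v - pathPotential g (baseOf S v))]

lemma mergedB_bound {v : List ℕ} (hα : |α| ≤ 1) (hβ : |β| ≤ 1)
    (h1 : |pathPotential f (baseOf S v)| ≤ 1) (h2 : |pathPotential g v| ≤ 1)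
    (h3 : |pathPotential g (baseOf S v)| ≤ 1) : |mergedB S f g α β v| ≤ 1 := by
  unfold mergedB
  refine QB_bound ?_ ?_
  · rw [abs_mul]
    nlinarith [abs_nonneg α, abs_nonneg (pathPotential f (baseOf S v))]
  · rw [abs_mul]
    have h4 : |pathPotential g v - pathPotential g (baseOf S v)| ≤ 2 := by
      have := abs_sub (pathPotential g v) (pathPotential g (baseOf S v))
      linarith
    nlinarith [abs_nonneg β, abs_nonneg (pathPotential g v - pathPotential g (baseOf S v))]

end combine

/-- The suffix closure of a finite set, with the root. -/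
def sufClose (A : Finset (List ℕ)) : Finset (List ℕ) :=
  insert [] (A.biUnion (fun s => s.tails.toFinset))

lemma nil_mem_sufClose (A : Finset (List ℕ)) : [] ∈ sufClose A := Finset.mem_insert_self _ _

lemma subset_sufClose (A : Finset (List ℕ)) : A ⊆ sufClose A := by
  intro s hs
  refine Finset.mem_insert_of_mem (Finset.mem_biUnion.2 ⟨s, hs, ?_⟩)
  simp

lemma sufClose_tail (A : Finset (List ℕ)) (a : ℕ) (v : List ℕ) (h : (a :: v) ∈ sufClose A) :
    v ∈ sufClose A := by
  unfold sufClose at h ⊢
  rw [Finset.mem_insert] at h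
  rcases h with h | h
  · simp at h
  · obtain ⟨s, hs, hv⟩ := Finset.mem_biUnion.1 h
    refine Finset.mem_insert_of_mem (Finset.mem_biUnion.2 ⟨s, hs, ?_⟩)
    simp only [List.mem_toFinset, List.mem_tails] at hv ⊢
    exact (List.suffix_cons a v).trans hv

end Crest.Agent.Lib.AUC
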