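import Mathlib
import Crest.Prelude.Def_TreePotentials
import Crest.Agent.Lib.AUC.Potential
import Crest.Agent.Lib.AUC.L2Sum

/-!
The components of the `ℓ²`-sum used for the reflexive example: the Hilbert space `ℓ²` on the vertices
of the countably branching tree, renormed by the supremum over those elements of the unit ball
whose potentials are bounded by one up to depth `k`.
-/

set_option autoImplicit false

namespace Crest.Agent.Lib.AUC

open Crest.AnalysisR.TreePotential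

/-- the Hilbert space on the vertices -/
abbrev HT := lp (fun _ : List ℕ => ℝ) 2

lemma HT_sum_sq_le (f : HT) (A : Finset (List ℕ)) : ∑ u ∈ A, f u ^ 2 ≤ ‖f‖ ^ 2 := by
  have h := lp.sum_rpow_le_norm_rpow (p := 2) (by simp) f A
  simp only [two_toReal, Real.rpow_two, Real.norm_eq_abs, sq_abs] at h
  exact h

/-- the vertices of a root path -/
def pathFin : List ℕ → Finset (List ℕ)
  | [] => {[]}
  | a :: v => insert (a :: v) (pathFin v)

lemma pathFin_len (v u : List ℕ) (hu : u ∈ pathFin v) : u.length ≤ v.length := by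
  induction v with
  | nil =>
    simp only [pathFin, Finset.mem_singleton] at hu
    simp [hu]
  | cons a v ih =>
    simp only [pathFin, Finset.mem_insert] at hu
    rcases hu with rfl | hu
    · exact le_rfl
    · have := ih hu
      simp only [List.length_cons]
      omega

lemma pathFin_card (v : List ℕ) : (pathFin v).card ≤ v.length + 1 := by
  induction v with
  | nil => simp [pathFin]
  | cons a v ih =>
    simp only [pathFin, List.length_cons]
    exact (Finset.card_insert_le _ _).trans (by omega)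

lemma pathPotential_eq_sum (f : List ℕ → ℝ) (v : List ℕ) :
    pathPotential f v = ∑ u ∈ pathFin v, f u := by
  induction v with
  | nil => simp [pathFin, pathPotential]
  | cons a v ih =>
    have hnot : (a :: v) ∉ pathFin v := by
      intro h
      have := pathFin_len _ _ h
      simp at this
    simp only [pathFin, pathPotential]
    rw [Finset.sum_insert hnot, ih]
    ring

lemma pathPotential_bound (f : HT) (v : List ℕ) :
    pathPotential f v ^ 2 ≤ (v.length + 1 : ℝ) * ‖f‖ ^ 2 := by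
  rw [pathPotential_eq_sum]
  calc (∑ u ∈ pathFin v, f u) ^ 2 ≤ ((pathFin v).card : ℝ) * ∑ u ∈ pathFin v, f u ^ 2 :=
        sq_sum_le_card_mul_sum_sq
    _ ≤ (v.length + 1 : ℝ) * ‖f‖ ^ 2 := by
        have h1 : ((pathFin v).card : ℝ) ≤ v.length + 1 := by exact_mod_cast pathFin_card v
        have h2 := HT_sum_sq_le f (pathFin v)
        have h3 : 0 ≤ ∑ u ∈ pathFin v, f u ^ 2 := Finset.sum_nonneg (fun _ _ => sq_nonneg _)
        gcongr

/-- tests: elements of the unit ball with potentials bounded up to depth `k` -/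
def IsTestK (k : ℕ) (f : HT) : Prop :=
  ‖f‖ ≤ 1 ∧ ∀ v : List ℕ, v.length ≤ k → |pathPotential f v| ≤ 1

/-- the test set -/
abbrev TestK (k : ℕ) := {f : HT // IsTestK k f}

lemma isTestK_zero (k : ℕ) : IsTestK k 0 := by
  refine ⟨by simp, fun v _ => ?_⟩
  have : pathPotential ((0 : HT) : List ℕ → ℝ) v = 0 := by
    rw [pathPotential_eq_sum]
    simp
  rw [this]
  simp

lemma isTestK_neg {k : ℕ} {f : HT} (hf : IsTestK k f) : IsTestK k (-f) := by
  refine ⟨by simpa using hf.1, fun v hv => ?_⟩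
  have : pathPotential ((-f : HT) : List ℕ → ℝ) v = - pathPotential f v := by
    rw [pathPotential_eq_sum, pathPotential_eq_sum, ← Finset.sum_neg_distrib]
    rfl
  rw [this, abs_neg]
  exact hf.2 v hv

/-- the embedding into bounded functions on the tests -/
noncomputable def J (k : ℕ) : HT →ₗ[ℝ] lp (fun _ : TestK k => ℝ) ⊤ where
  toFun x := ⟨fun f => inner ℝ f.1 x, memℓp_infty ⟨‖x‖, by
    rintro _ ⟨f, rfl⟩
    have h1 := abs_real_inner_le_norm f.1 x
    have h2 : ‖f.1‖ * ‖x‖ ≤ 1 * ‖x‖ := by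
      have := f.2.1
      gcongr
    simp only [Real.norm_eq_abs]
    linarith⟩⟩
  map_add' a b := by
    ext f
    simp [inner_add_right]
  map_smul' c a := by
    ext f
    simp [inner_smul_right]

/-- the norm of the component -/
noncomputable def N (k : ℕ) (x : HT) : ℝ := ‖J k x‖

lemma N_nonneg (k : ℕ) (x : HT) : 0 ≤ N k x := norm_nonneg _

lemma inner_le_N {k : ℕ} (f : TestK k) (x : HT) : inner ℝ f.1 x ≤ N k x := by
  have h := lp.norm_apply_le_norm (p := ⊤) (by simp) (J k x) f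
  exact (le_abs_self _).trans h

lemma N_le (k : ℕ) (x : HT) : N k x ≤ ‖x‖ := by
  refine lp.norm_le_of_forall_le (norm_nonneg _) (fun f => ?_)
  have h1 := abs_real_inner_le_norm f.1 x
  have h2 : ‖f.1‖ * ‖x‖ ≤ 1 * ‖x‖ := by
    have := f.2.1
    gcongr
  have h3 : ‖(J k x : TestK k → ℝ) f‖ = |inner ℝ f.1 x| := rfl
  rw [h3]
  linarith

lemma mul_N_le (k : ℕ) (x : HT) {α B : ℝ} (hα : 0 ≤ α)
    (h : ∀ f : TestK k, α * inner ℝ f.1 x ≤ B) : α * N k x ≤ B := by
  haveI : Nonempty (TestK k) := ⟨⟨0, isTestK_zero k⟩⟩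
  rcases hα.eq_or_lt with rfl | hpos
  · have := h ⟨0, isTestK_zero k⟩
    simpa using this
  · have h1 : N k x ≤ B / α := by
      refine lp.norm_le_of_forall_le' (B / α) (fun f => ?_)
      have h3 : ‖(J k x : TestK k → ℝ) f‖ = |inner ℝ f.1 x| := rfl
      rw [h3, abs_le]
      constructor
      · rw [neg_le, le_div_iff₀ hpos]
        have := h ⟨-f.1, isTestK_neg f.2⟩
        simp only [inner_neg_left] at this
        nlinarith
      · rw [le_div_iff₀ hpos]
        have := h f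
        nlinarith
    rw [le_div_iff₀ hpos] at h1
    linarith

lemma N_add (k : ℕ) (x y : HT) : N k (x + y) ≤ N k x + N k y := by
  unfold N
  rw [map_add]
  exact norm_add_le _ _

lemma N_neg (k : ℕ) (x : HT) : N k (-x) = N k x := by
  unfold N
  rw [map_neg, norm_neg]

lemma N_smul (k : ℕ) (c : ℝ) (x : HT) : N k (c • x) = |c| * N k x := by
  unfold N
  rw [map_smul, norm_smul, Real.norm_eq_abs]

/-- the comparison with the Hilbert norm -/
lemma le_N (k : ℕ) (x : HT) : ‖x‖ ≤ Real.sqrt (k + 1) * N k x := by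
  by_cases hx : x = 0
  · subst hx
    simp only [norm_zero]
    exact mul_nonneg (Real.sqrt_nonneg _) (N_nonneg _ _)
  have hxpos : 0 < ‖x‖ := norm_pos_iff.2 hx
  set r := Real.sqrt (k + 1) with hr
  have hr1 : 1 ≤ r := by
    rw [hr]
    refine Real.one_le_sqrt.2 ?_
    have : (0 : ℝ) ≤ k := Nat.cast_nonneg _
    linarith
  have hrpos : 0 < r := by linarith
  have hr2 : r ^ 2 = k + 1 := Real.sq_sqrt (by positivity)
  set f : HT := (r * ‖x‖)⁻¹ • x with hf
  have hfnorm : ‖f‖ = r⁻¹ := by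
    rw [hf, norm_smul, norm_inv, Real.norm_of_nonneg (by positivity)]
    field_simp
  have htest : IsTestK k f := by
    refine ⟨by rw [hfnorm]; exact inv_le_one_of_one_le₀ hr1, fun v hv => ?_⟩
    have h1 := pathPotential_bound f v
    rw [hfnorm] at h1
    have h2 : (v.length + 1 : ℝ) ≤ k + 1 := by
      have : (v.length : ℝ) ≤ k := by exact_mod_cast hv
      linarith
    have h3 : pathPotential f v ^ 2 ≤ 1 := by
      refine h1.trans ?_
      rw [inv_pow, hr2]
      rw [← div_eq_mul_inv, div_le_one (by positivity)]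
      exact h2
    exact (sq_le_one_iff_abs_le_one _).1 h3
  have h1 := inner_le_N (⟨f, htest⟩ : TestK k) x
  simp only at h1
  have h2 : inner ℝ f x = ‖x‖ / r := by
    rw [hf, inner_smul_left, real_inner_self_eq_norm_sq]
    simp only [conj_trivial]
    field_simp
  rw [h2] at h1
  rw [div_le_iff₀ hrpos] at h1
  linarith

lemma J_injective (k : ℕ) : Function.Injective (J k) := by
  refine (injective_iff_map_eq_zero (J k)).2 (fun x hx => ?_)
  have h0 : N k x = 0 := by
    unfold N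
    rw [hx, norm_zero]
  have h1 := le_N k x
  rw [h0, mul_zero] at h1
  exact norm_le_zero_iff.1 h1

/-- pointwise comparison of inner products -/
lemma inner_congr_ptwise (a b x : HT) (h : ∀ s, a s * x s = b s * x s) :
    inner ℝ a x = inner ℝ b x := by
  rw [lp.inner_eq_tsum, lp.inner_eq_tsum]
  refine tsum_congr (fun s => ?_)
  simp only [RCLike.inner_apply, conj_trivial]
  rw [mul_comm (x s), mul_comm (x s)]
  exact h s

/-- A coefficient family dominated by two elements gives an element of the Hilbert space. -/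
lemma exists_HT_of_dominated (h : List ℕ → ℝ) (f g : HT) {α β : ℝ} (hab : α ^ 2 + β ^ 2 ≤ 1)
    (hf : ‖f‖ ≤ 1) (hg : ‖g‖ ≤ 1) (hd : ∀ s, h s ^ 2 ≤ α ^ 2 * f s ^ 2 + β ^ 2 * g s ^ 2) :
    ∃ p : HT, (∀ s, p s = h s) ∧ ‖p‖ ≤ 1 := by
  have hsum : ∀ A : Finset (List ℕ), ∑ s ∈ A, h s ^ 2 ≤ 1 := by
    intro A
    calc ∑ s ∈ A, h s ^ 2 ≤ ∑ s ∈ A, (α ^ 2 * f s ^ 2 + β ^ 2 * g s ^ 2) :=
          Finset.sum_le_sum (fun s _ => hd s)
      _ = α ^ 2 * ∑ s ∈ A, f s ^ 2 + β ^ 2 * ∑ s ∈ A, g s ^ 2 := by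
          rw [Finset.sum_add_distrib, Finset.mul_sum, Finset.mul_sum]
      _ ≤ α ^ 2 * 1 + β ^ 2 * 1 := by
          have h1 := HT_sum_sq_le f A
          have h2 := HT_sum_sq_le g A
          have h3 : ‖f‖ ^ 2 ≤ 1 := by nlinarith [norm_nonneg f]
          have h4 : ‖g‖ ^ 2 ≤ 1 := by nlinarith [norm_nonneg g]
          gcongr <;> linarith
      _ ≤ 1 := by linarith
  have hmem : Memℓp (fun s => h s) 2 := memℓp_gen' (C := 1) (fun A => by
    simp only [two_toReal, Real.rpow_two, Real.norm_eq_abs, sq_abs]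
    exact hsum A)
  refine ⟨⟨fun s => h s, hmem⟩, fun s => rfl, ?_⟩
  refine lp.norm_le_of_forall_sum_le (p := 2) (by simp) zero_le_one (fun A => ?_)
  simp only [two_toReal, Real.rpow_two, one_pow]
  have h5 : ∀ s ∈ A, ‖(⟨fun s => h s, hmem⟩ : HT) s‖ ^ 2 = h s ^ 2 := by
    intro s _
    rw [Real.norm_eq_abs, sq_abs]
  rw [Finset.sum_congr rfl h5]
  exact hsum A

section KL

variable (k : ℕ) (S : Finset (List ℕ)) (h0 : [] ∈ S) (hS : ∀ a v, (a :: v) ∈ S → v ∈ S)

include h0 hS in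
/-- the main inequality for a pair of tests -/
lemma KL_tests (x₁ x₂ y : HT) (hx₁ : ∀ s, s ∉ S → x₁ s = 0) (hx₂ : ∀ s, s ∉ S → x₂ s = 0)
    (hy : ∀ s ∈ S, y s = 0) (α β : ℝ) (hab : α ^ 2 + β ^ 2 ≤ 1) (f g : TestK k) :
    α * inner ℝ f.1 (x₁ + x₂) + β * inner ℝ g.1 y ≤ N k (x₁ + y) + N k (x₂ - y) := by
  have hα : |α| ≤ 1 := by
    rw [← sq_le_one_iff_abs_le_one]
    nlinarith [sq_nonneg β]
  have hβ : |β| ≤ 1 := by
    rw [← sq_le_one_iff_abs_le_one]
    nlinarith [sq_nonneg α]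
  obtain ⟨p, hp, hpn⟩ := exists_HT_of_dominated (coefOf (mergedA (· ∈ S) f.1 g.1 α β)) f.1 g.1 hab
    f.2.1 g.2.1 (coefA_sq_le h0 hS f.1 g.1 α β)
  obtain ⟨q, hq, hqn⟩ := exists_HT_of_dominated (coefOf (mergedB (· ∈ S) f.1 g.1 α β)) f.1 g.1 hab
    f.2.1 g.2.1 (coefB_sq_le h0 hS f.1 g.1 α β)
  have hpfun : (p : List ℕ → ℝ) = coefOf (mergedA (· ∈ S) f.1 g.1 α β) := funext hp
  have hqfun : (q : List ℕ → ℝ) = coefOf (mergedB (· ∈ S) f.1 g.1 α β) := funext hq
  have hbase : ∀ v : List ℕ, v.length ≤ k → (baseOf (· ∈ S) v).length ≤ k := fun v hv =>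
    (baseOf_suffix (· ∈ S) v).length_le.trans hv
  have hptest : IsTestK k p := by
    refine ⟨hpn, fun v hv => ?_⟩
    rw [hpfun, pathPotential_coefOf]
    exact mergedA_bound _ _ _ _ hα hβ (f.2.2 _ (hbase v hv)) (g.2.2 _ hv) (g.2.2 _ (hbase v hv))
  have hqtest : IsTestK k q := by
    refine ⟨hqn, fun v hv => ?_⟩
    rw [hqfun, pathPotential_coefOf]
    exact mergedB_bound _ _ _ _ hα hβ (f.2.2 _ (hbase v hv)) (g.2.2 _ hv) (g.2.2 _ (hbase v hv))
  have h1 := inner_le_N (⟨p, hptest⟩ : TestK k) (x₁ + y)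
  have h2 := inner_le_N (⟨q, hqtest⟩ : TestK k) (x₂ - y)
  simp only at h1 h2
  have h3 : inner ℝ p x₁ = α * inner ℝ f.1 x₁ := by
    rw [← real_inner_smul_left]
    refine inner_congr_ptwise _ _ _ (fun s => ?_)
    by_cases hs : s ∈ S
    · rw [hp, coefA_of_mem h0 hS f.1 g.1 α β hs]
      simp
    · rw [hx₁ s hs]
      simp
  have h4 : inner ℝ q x₂ = α * inner ℝ f.1 x₂ := by
    rw [← real_inner_smul_left]
    refine inner_congr_ptwise _ _ _ (fun s => ?_)
    by_cases hs : s ∈ S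
    · rw [hq, coefB_of_mem h0 hS f.1 g.1 α β hs]
      simp
    · rw [hx₂ s hs]
      simp
  have h5 : inner ℝ (p - q) y = β * inner ℝ g.1 y := by
    rw [← real_inner_smul_left]
    refine inner_congr_ptwise _ _ _ (fun s => ?_)
    by_cases hs : s ∈ S
    · rw [hy s hs]
      simp
    · have h6 : (p - q : HT) s = β * g.1 s := by
        show p s - q s = _
        rw [hp, hq]
        exact coef_sub_of_not h0 f.1 g.1 α β hs
      rw [h6]
      simp
  rw [inner_add_right] at h1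
  rw [inner_sub_right] at h2
  rw [inner_sub_left] at h5
  rw [inner_add_right]
  rw [h3] at h1
  rw [h4] at h2
  nlinarith

include h0 hS in
/-- the key local inequality -/
lemma KL_H (x₁ x₂ y : HT) (hx₁ : ∀ s, s ∉ S → x₁ s = 0) (hx₂ : ∀ s, s ∉ S → x₂ s = 0)
    (hy : ∀ s ∈ S, y s = 0) (α β : ℝ) (hα : 0 ≤ α) (hβ : 0 ≤ β) (hab : α ^ 2 + β ^ 2 ≤ 1) :
    α * N k (x₁ + x₂) + β * N k y ≤ N k (x₁ + y) + N k (x₂ - y) := by
  have h1 : ∀ f : TestK k, β * N k y ≤
      N k (x₁ + y) + N k (x₂ - y) - α * inner ℝ f.1 (x₁ + x₂) := by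
    intro f
    refine mul_N_le k y hβ (fun g => ?_)
    have := KL_tests k S h0 hS x₁ x₂ y hx₁ hx₂ hy α β hab f g
    linarith
  have h2 : α * N k (x₁ + x₂) ≤ N k (x₁ + y) + N k (x₂ - y) - β * N k y := by
    refine mul_N_le k (x₁ + x₂) hα (fun f => ?_)
    have := h1 f
    linarith
  linarith

include h0 hS in
lemma KL_H_sqrt (x₁ x₂ y : HT) (hx₁ : ∀ s, s ∉ S → x₁ s = 0) (hx₂ : ∀ s, s ∉ S → x₂ s = 0)
    (hy : ∀ s ∈ S, y s = 0) :
    Real.sqrt (N k ((1 / 2 : ℝ) • (x₁ + x₂)) ^ 2 + N k y ^ 2 / 4) ≤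
      (N k (x₁ + y) + N k (x₂ - y)) / 2 := by
  set a := N k ((1 / 2 : ℝ) • (x₁ + x₂)) with ha
  have ha2 : N k (x₁ + x₂) = 2 * a := by
    rw [ha, N_smul, abs_of_pos (by norm_num : (0 : ℝ) < 1 / 2)]
    ring
  set b := N k y with hb
  have ha0 : 0 ≤ a := N_nonneg _ _
  have hb0 : 0 ≤ b := N_nonneg _ _
  set R := Real.sqrt (a ^ 2 + b ^ 2 / 4) with hRdef
  have hR0 : 0 ≤ R := Real.sqrt_nonneg _
  rcases hR0.eq_or_lt with hR | hRpos
  · rw [← hR]
    have := N_nonneg k (x₁ + y)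
    have := N_nonneg k (x₂ - y)
    positivity
  have hR2 : R ^ 2 = a ^ 2 + b ^ 2 / 4 := Real.sq_sqrt (by positivity)
  have hab : (a / R) ^ 2 + ((b / 2) / R) ^ 2 ≤ 1 := by
    have : (a / R) ^ 2 + ((b / 2) / R) ^ 2 = (a ^ 2 + b ^ 2 / 4) / R ^ 2 := by
      field_simp
      ring
    rw [this, hR2.symm, div_self (by positivity)]
  have key := KL_H k S h0 hS x₁ x₂ y hx₁ hx₂ hy (a / R) ((b / 2) / R)
    (by positivity) (by positivity) hab
  rw [ha2] at key
  have h3 : a / R * (2 * a) + (b / 2) / R * b = 2 * R := by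
    have : a / R * (2 * a) + (b / 2) / R * b = 2 * (a ^ 2 + b ^ 2 / 4) / R := by
      field_simp
      ring
    rw [this, ← hR2]
    field_simp
  linarith

end KL

end Crest.Agent.Lib.AUC
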