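import Mathlib
import Crest.Prelude.Def_AsymptoticConvexity
import Crest.Agent.Lib.AUC.Basic
import Crest.Agent.Lib.AUC.TestSpace

/-!
The `ℓ²`-sum of the renormed Hilbert spaces.
-/

set_option autoImplicit false

namespace Crest.Agent.Lib.AUC

open Crest.AnalysisR.TreePotential

/-- the component space -/
def GT (k : ℕ) : Type := HT

noncomputable instance (k : ℕ) : AddCommGroup (GT k) := inferInstanceAs (AddCommGroup HT)
noncomputable instance (k : ℕ) : Module ℝ (GT k) := inferInstanceAs (Module ℝ HT)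

/-- identification -/
noncomputable def toH (k : ℕ) : GT k ≃ₗ[ℝ] HT := LinearEquiv.refl ℝ HT

/-- the embedding -/
noncomputable def JG (k : ℕ) : GT k →ₗ[ℝ] lp (fun _ : TestK k => ℝ) ⊤ :=
  (J k).comp (toH k).toLinearMap

lemma JG_injective (k : ℕ) : Function.Injective (JG k) :=
  (J_injective k).comp (toH k).injective

noncomputable instance (k : ℕ) : NormedAddCommGroup (GT k) :=
  NormedAddCommGroup.induced (GT k) (lp (fun _ : TestK k => ℝ) ⊤) (JG k) (JG_injective k)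

noncomputable instance (k : ℕ) : NormedSpace ℝ (GT k) :=
  NormedSpace.induced ℝ (GT k) (lp (fun _ : TestK k => ℝ) ⊤) (JG k)

lemma norm_GT (k : ℕ) (x : GT k) : ‖x‖ = N k (toH k x) := rfl

/-- the identity as an isomorphism -/
noncomputable def equivGT (k : ℕ) : HT ≃L[ℝ] GT k :=
  (toH k).symm.toContinuousLinearEquivOfBounds 1 (Real.sqrt (k + 1))
    (fun x => by
      rw [one_mul]
      exact N_le k x)
    (fun x => le_N k (toH k x))

instance (k : ℕ) : CompleteSpace (GT k) :=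
  (completeSpace_congr (e := (equivGT k).toEquiv) (equivGT k).isUniformEmbedding).1 inferInstance

/-- the carrier of the example -/
noncomputable abbrev ET := lp GT 2

/-- the example -/
noncomputable def bET : Crest.AnalysisR.RealBanach :=
  ⟨ET, inferInstance, inferInstance, inferInstance⟩

theorem ET_reflexive : bET.IsReflexive :=
  lp2_reflexive (fun k => reflexive_of_equiv (equivGT k) (hilbert_reflexive HT))

/-- coordinate functional -/
noncomputable def cd (k : ℕ) (s : List ℕ) : ET →L[ℝ] ℝ := LinearMap.mkContinuous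
  { toFun := fun u => (toH k (u k)) s
    map_add' := fun a b => rfl
    map_smul' := fun a b => rfl } (Real.sqrt (k + 1)) (fun u => by
      have h1 : ‖(toH k (u k)) s‖ ≤ ‖toH k (u k)‖ :=
        lp.norm_apply_le_norm (p := 2) (by simp) (toH k (u k)) s
      have h2 := le_N k (toH k (u k))
      have h3 : N k (toH k (u k)) ≤ ‖u‖ := lp.norm_apply_le_norm (p := 2) (by simp) u k
      have h4 : Real.sqrt (k + 1) * N k (toH k (u k)) ≤ Real.sqrt (k + 1) * ‖u‖ := by gcongr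
      exact h1.trans (h2.trans h4))

lemma cd_apply (k : ℕ) (s : List ℕ) (u : ET) : cd k s u = (toH k (u k)) s := rfl

/-- standard vector of the Hilbert space -/
noncomputable def eT (s : List ℕ) : HT := lp.single 2 s (1 : ℝ)

lemma eT_apply (s u : List ℕ) : eT s u = if u = s then 1 else 0 := by
  by_cases h : u = s
  · subst h
    rw [if_pos rfl]
    exact lp.single_apply_self (E := fun _ : List ℕ => ℝ) 2 u (1 : ℝ)
  · rw [if_neg h]
    exact lp.single_apply_ne (E := fun _ : List ℕ => ℝ) 2 s (1 : ℝ) h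

lemma inner_eT_right (f : HT) (s : List ℕ) : inner ℝ f (eT s) = f s := by
  rw [eT, lp.inner_single_right]
  simp

lemma inner_eT_left (f : HT) (s : List ℕ) : inner ℝ (eT s) f = f s := by
  rw [eT, lp.inner_single_left]
  simp

lemma norm_eT (s : List ℕ) : ‖eT s‖ = 1 := by
  rw [eT, lp.norm_single (by simp)]
  simp

lemma pathPotential_eT (s v : List ℕ) : pathPotential (eT s) v = if s <:+ v then 1 else 0 := by
  induction v with
  | nil =>
    simp only [pathPotential, eT_apply]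
    by_cases h : s = []
    · subst h
      simp
    · have h1 : ¬ s <:+ [] := by simpa [List.suffix_nil] using h
      rw [if_neg h1, if_neg (Ne.symm h)]
  | cons a v ih =>
    simp only [pathPotential, ih, eT_apply]
    by_cases h : s <:+ v
    · have h1 : s ≠ a :: v := fun e => by
        subst e
        have := h.length_le
        simp at this
      have h2 : s <:+ a :: v := h.trans (List.suffix_cons a v)
      rw [if_pos h, if_pos h2, if_neg (Ne.symm h1)]
      ring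
    · by_cases h3 : s = a :: v
      · subst h3
        simp only [if_neg h, List.suffix_refl, if_true]
        ring
      · have h2 : ¬ s <:+ a :: v := by
          rw [List.suffix_cons_iff]
          tauto
        rw [if_neg h, if_neg h2, if_neg (Ne.symm h3)]
        ring

lemma isTestK_eT (k : ℕ) (s : List ℕ) : IsTestK k (eT s) := by
  refine ⟨(norm_eT s).le, fun v _ => ?_⟩
  rw [pathPotential_eT]
  split_ifs <;> simp

lemma one_le_N_eT (k : ℕ) (s : List ℕ) : 1 ≤ N k (eT s) := by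
  have h := inner_le_N (⟨eT s, isTestK_eT k s⟩ : TestK k) (eT s)
  simp only at h
  rw [inner_eT_left, eT_apply, if_pos rfl] at h
  exact h

lemma N_eT_le (k : ℕ) (s : List ℕ) : N k (eT s) ≤ 1 := by
  have := N_le k (eT s)
  rwa [norm_eT] at this

/-- inclusion of the `k`-th component -/
noncomputable def ιH (k : ℕ) : HT →ₗ[ℝ] ET :=
  (lp.lsingle (𝕜 := ℝ) (E := GT) 2 k).comp (toH k).symm.toLinearMap

lemma norm_ιH (k : ℕ) (x : HT) : ‖ιH k x‖ = N k x :=
  lp.norm_single (by simp) k ((toH k).symm x)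

lemma ιH_apply_self (k : ℕ) (x : HT) : (ιH k x) k = (toH k).symm x :=
  lp.single_apply_self 2 k _

lemma ιH_apply_ne {k k' : ℕ} (h : k' ≠ k) (x : HT) : (ιH k x) k' = 0 :=
  lp.single_apply_ne 2 k _ h

lemma cd_ιH (k k' : ℕ) (s : List ℕ) (x : HT) :
    cd k' s (ιH k x) = if k' = k then x s else 0 := by
  by_cases h : k' = k
  · subst h
    rw [if_pos rfl, cd_apply, ιH_apply_self]
    simp
  · rw [if_neg h, cd_apply, ιH_apply_ne h]
    simp

/-- coordinate vector of the sum -/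
noncomputable def sg (k : ℕ) (s : List ℕ) : ET := ιH k (eT s)

lemma norm_sg (k : ℕ) (s : List ℕ) : ‖sg k s‖ = N k (eT s) := norm_ιH k _

lemma one_le_norm_sg (k : ℕ) (s : List ℕ) : 1 ≤ ‖sg k s‖ := by
  rw [norm_sg]
  exact one_le_N_eT k s

lemma norm_sg_le (k : ℕ) (s : List ℕ) : ‖sg k s‖ ≤ 1 := by
  rw [norm_sg]
  exact N_eT_le k s

lemma cd_sg (k k' : ℕ) (s s' : List ℕ) :
    cd k' s' (sg k s) = if k' = k ∧ s' = s then 1 else 0 := by
  rw [sg, cd_ιH, eT_apply]
  by_cases h : k' = k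
  · by_cases h' : s' = s
    · simp [h, h']
    · simp [h, h']
  · simp [h]

/-- sibling sums -/
lemma norm_sum_sg (k : ℕ) (r : List ℕ) (A : Finset ℕ) :
    ‖∑ n ∈ A, sg k (n :: r)‖ ≤ 1 * Real.sqrt A.card := by
  have h1 : ∑ n ∈ A, sg k (n :: r) = ιH k (∑ n ∈ A, eT (n :: r)) := by
    rw [map_sum]
    rfl
  rw [h1, norm_ιH, one_mul]
  have h2 := mul_N_le k (∑ n ∈ A, eT (n :: r)) (α := 1) (B := Real.sqrt A.card) zero_le_one
    (fun f => by
      rw [one_mul, inner_sum]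
      simp only [inner_eT_right]
      refine (le_abs_self _).trans (Real.abs_le_sqrt ?_)
      calc (∑ n ∈ A, f.1 (n :: r)) ^ 2 ≤ (A.card : ℝ) * ∑ n ∈ A, f.1 (n :: r) ^ 2 :=
            sq_sum_le_card_mul_sum_sq
        _ ≤ (A.card : ℝ) * 1 := by
            gcongr
            have h3 := HT_sum_sq_le f.1 (A.image (fun n => n :: r))
            rw [Finset.sum_image (fun a _ b _ h => (List.cons.inj h).1)] at h3
            have h4 := f.2.1
            have h5 : ‖f.1‖ ^ 2 ≤ 1 := by nlinarith [norm_nonneg f.1]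
            linarith
        _ = A.card := mul_one _)
  linarith

/-- path vectors -/
noncomputable def bT : List ℕ → HT
  | [] => 0
  | a :: v => bT v + eT (a :: v)

lemma inner_bT (f : HT) (v : List ℕ) : inner ℝ f (bT v) = pathPotential f v - f [] := by
  induction v with
  | nil =>
    simp [bT, pathPotential]
  | cons a v ih =>
    simp only [bT, pathPotential]
    rw [inner_add_right, ih, inner_eT_right]
    ring

lemma N_bT_le (k : ℕ) (v : List ℕ) (hv : v.length ≤ k) : N k (bT v) ≤ 2 := by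
  have h := mul_N_le k (bT v) (α := 1) (B := 2) zero_le_one (fun f => by
    rw [one_mul, inner_bT]
    have h1 := f.2.2 v hv
    have h2 := f.2.2 [] (by simp)
    simp only [pathPotential] at h2
    rw [abs_le] at h1 h2
    linarith [h1.1, h1.2, h2.1, h2.2])
  linarith

/-- the not-AUC part -/
theorem ET_not_auc : ∀ N : bET.X → ℝ, bET.IsEquivNorm N → ¬ bET.IsAUC N := by
  have htree : ∀ L : ℕ, ∃ 𝒯 : ℕ → Set ET,
      (∃ x ∈ 𝒯 0, (1 : ℝ) ≤ ‖x‖) ∧ (∀ j, ∀ x ∈ 𝒯 j, ‖x‖ ≤ 2) ∧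
      ∀ j, j < L → ∀ x ∈ 𝒯 j, ∀ S : Submodule ℝ ET, IsClosed (S : Set ET) →
        FiniteDimensional ℝ (ET ⧸ S) → ∀ δ : ℝ, 0 < δ →
          ∃ y, (1 : ℝ) ≤ ‖y‖ ∧ x + y ∈ 𝒯 (j + 1) ∧ ∃ s ∈ S, ‖y - s‖ < δ := by
    intro L
    refine ⟨fun j => {x | ∃ v : List ℕ, v.length ≤ j + 1 ∧ v.length ≤ L + 1 ∧
      x = ιH (L + 1) (bT v)}, ⟨ιH (L + 1) (bT [0]), ⟨[0], by simp, by simp, rfl⟩, ?_⟩, ?_, ?_⟩
    · have h1 : bT [0] = eT [0] := by simp [bT]
      rw [h1]
      exact one_le_norm_sg _ _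
    · rintro j x ⟨v, -, hv, rfl⟩
      rw [norm_ιH]
      exact N_bT_le _ _ hv
    · rintro j hj x ⟨r, hr1, hr2, rfl⟩ S hScl hSfd δ hδ
      obtain ⟨n, s, hs, hlt⟩ := exists_near_of_sublinear S hScl hSfd
        (fun n => sg (L + 1) (n :: r)) 1 1 (fun n => norm_sg_le _ _)
        (fun A => norm_sum_sg (L + 1) r A) hδ
      refine ⟨sg (L + 1) (n :: r), one_le_norm_sg _ _, ⟨n :: r, ?_, ?_, ?_⟩, s, hs, hlt⟩
      · simp only [List.length_cons]
        omega
      · simp only [List.length_cons]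
        omega
      · rw [bT, map_add]
        rfl
  exact realBanach_not_auc bET 2 1 one_pos htree

lemma ET_not_fd : ¬ FiniteDimensional ℝ ET := by
  intro hfd
  have hcl : IsClosed ((⊥ : Submodule ℝ ET) : Set ET) := by simp
  have hfd' : FiniteDimensional ℝ (ET ⧸ (⊥ : Submodule ℝ ET)) := inferInstance
  obtain ⟨n, s, hs, hlt⟩ := exists_near_of_sublinear (⊥ : Submodule ℝ ET) hcl hfd'
    (fun n => sg 0 (n :: [])) 1 1 (fun n => norm_sg_le _ _) (fun A => norm_sum_sg 0 [] A) one_pos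
  rw [Submodule.mem_bot] at hs
  subst hs
  rw [sub_zero] at hlt
  exact absurd hlt (not_lt.2 (one_le_norm_sg _ _))

/-- the span of the coordinate vectors -/
noncomputable def DT : Submodule ℝ ET :=
  Submodule.span ℝ (Set.range (fun p : ℕ × List ℕ => sg p.1 p.2))

lemma hasSum_mem {X ι : Type*} [NormedAddCommGroup X] [NormedSpace ℝ X] (M : Submodule ℝ X)
    (hM : IsClosed (M : Set X)) {f : ι → X} {a : X} (hf : ∀ i, f i ∈ M) (h : HasSum f a) :
    a ∈ M :=
  hM.mem_of_tendsto h (Filter.Eventually.of_forall (fun F => M.sum_mem (fun i _ => hf i)))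

/-- continuous inclusion of a component -/
noncomputable def ιL (k : ℕ) : HT →L[ℝ] ET :=
  (ιH k).mkContinuous 1 (fun x => by
    rw [one_mul, norm_ιH]
    exact N_le k x)

lemma ιL_apply (k : ℕ) (x : HT) : ιL k x = ιH k x := rfl

lemma DT_dense (u : ET) : u ∈ DT.topologicalClosure := by
  have hcl : IsClosed (DT.topologicalClosure : Set ET) := DT.isClosed_topologicalClosure
  have hsg : ∀ k s, sg k s ∈ DT := fun k s => Submodule.subset_span ⟨(k, s), rfl⟩
  have h1 : ∀ (k : ℕ) (x : HT), ιH k x ∈ DT.topologicalClosure := by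
    intro k x
    have hs : HasSum (fun s => ιL k (lp.single 2 s (x s))) (ιL k x) :=
      (lp.hasSum_single (p := 2) (by simp) x).mapL (ιL k)
    refine hasSum_mem _ hcl (fun s => ?_) hs
    apply Submodule.le_topologicalClosure
    have : ιL k (lp.single 2 s (x s)) = x s • sg k s := by
      have h2 : (lp.single 2 s (x s) : HT) = x s • eT s := by
        rw [eT, ← lp.single_smul]
        congr 1
        simp
      rw [h2, map_smul]
      rfl
    rw [this]
    exact DT.smul_mem _ (hsg k s)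
  have hs : HasSum (fun k => lp.single 2 k (u k)) u := lp.hasSum_single (p := 2) (by simp) u
  refine hasSum_mem _ hcl (fun k => ?_) hs
  exact h1 k (toH k (u k))

theorem ET_separable : TopologicalSpace.SeparableSpace ET := by
  have h1 : TopologicalSpace.IsSeparable (Set.range (fun p : ℕ × List ℕ => sg p.1 p.2)) :=
    (Set.countable_range _).isSeparable
  have h2 := (h1.span (R := ℝ)).closure
  have h3 : closure ((DT : Submodule ℝ ET) : Set ET) = Set.univ := by
    refine Set.eq_univ_of_forall (fun u => ?_)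
    have := DT_dense u
    rwa [← SetLike.mem_coe, Submodule.topologicalClosure_coe] at this
  have h4 : TopologicalSpace.IsSeparable (Set.univ : Set ET) := by
    rw [← h3]
    exact h2
  exact TopologicalSpace.isSeparable_univ_iff.1 h4

/-- support in a finite rectangle of coordinates -/
def Supp (K : Finset ℕ) (S : Finset (List ℕ)) (x : ET) : Prop :=
  ∀ k s, (k ∉ K ∨ s ∉ S) → cd k s x = 0

lemma exists_supp_of_mem {x : ET} (hx : x ∈ DT) : ∃ K S, Supp K S x := by
  induction hx using Submodule.span_induction with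
  | mem x h =>
    obtain ⟨⟨k, s⟩, rfl⟩ := h
    refine ⟨{k}, {s}, fun k' s' h' => ?_⟩
    simp only
    rw [cd_sg, if_neg]
    rintro ⟨rfl, rfl⟩
    simp at h'
  | zero => exact ⟨∅, ∅, fun k s _ => map_zero _⟩
  | add x y _ _ hx hy =>
    obtain ⟨K₁, S₁, h₁⟩ := hx
    obtain ⟨K₂, S₂, h₂⟩ := hy
    refine ⟨K₁ ∪ K₂, S₁ ∪ S₂, fun k s h => ?_⟩
    rw [map_add]
    have hk : ∀ i : Finset ℕ, ∀ j : Finset (List ℕ), i ⊆ K₁ ∪ K₂ → j ⊆ S₁ ∪ S₂ →
        (k ∉ i ∨ s ∉ j) := by
      intro i j hi hj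
      rcases h with h | h
      · exact Or.inl (fun h' => h (hi h'))
      · exact Or.inr (fun h' => h (hj h'))
    rw [h₁ k s (hk _ _ Finset.subset_union_left Finset.subset_union_left),
      h₂ k s (hk _ _ Finset.subset_union_right Finset.subset_union_right), add_zero]
  | smul c x _ hx =>
    obtain ⟨K, S, h⟩ := hx
    refine ⟨K, S, fun k s h' => ?_⟩
    rw [map_smul, h k s h', smul_zero]

/-- finitely supported approximation, with a suffix closed set of vertices -/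
lemma exists_approx (u : ET) {ε : ℝ} (hε : 0 < ε) : ∃ (x : ET) (K : Finset ℕ)
    (S : Finset (List ℕ)), [] ∈ S ∧ (∀ a v, (a :: v) ∈ S → v ∈ S) ∧ Supp K S x ∧ ‖u - x‖ < ε := by
  have hu : u ∈ closure ((DT : Submodule ℝ ET) : Set ET) := by
    have := DT_dense u
    rwa [← SetLike.mem_coe, Submodule.topologicalClosure_coe] at this
  obtain ⟨x, hx, hd⟩ := Metric.mem_closure_iff.1 hu ε hε
  obtain ⟨K, S, h⟩ := exists_supp_of_mem (SetLike.mem_coe.1 hx)
  refine ⟨x, K, sufClose S, nil_mem_sufClose _, sufClose_tail _, fun k s h' => h k s ?_, ?_⟩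
  · rcases h' with h' | h'
    · exact Or.inl h'
    · exact Or.inr (fun h'' => h' (subset_sufClose _ h''))
  · rwa [dist_eq_norm] at hd

/-- The local inequality in the sum. -/
theorem KL_E (K : Finset ℕ) (S : Finset (List ℕ)) (h0 : [] ∈ S)
    (hS : ∀ a v, (a :: v) ∈ S → v ∈ S) (x₁ x₂ y : ET) (hx₁ : Supp K S x₁) (hx₂ : Supp K S x₂)
    (hy : ∀ k ∈ K, ∀ s ∈ S, cd k s y = 0) :
    Real.sqrt (‖(1 / 2 : ℝ) • (x₁ + x₂)‖ ^ 2 + ‖y‖ ^ 2 / 4) ≤ (‖x₁ + y‖ + ‖x₂ - y‖) / 2 := by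
  refine lp2_lift _ _ _ _ (fun k => ?_)
  by_cases hk : k ∈ K
  · exact KL_H_sqrt k S h0 hS (toH k (x₁ k)) (toH k (x₂ k)) (toH k (y k))
      (fun s hs => hx₁ k s (Or.inr hs)) (fun s hs => hx₂ k s (Or.inr hs)) (fun s hs => hy k hk s hs)
  · have h1 : x₁ k = 0 := by
      apply (toH k).injective
      ext s
      exact hx₁ k s (Or.inl hk)
    have h2 : x₂ k = 0 := by
      apply (toH k).injective
      ext s
      exact hx₂ k s (Or.inl hk)
    have h3 : ((1 / 2 : ℝ) • (x₁ + x₂) : ET) k = 0 := by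
      show (1 / 2 : ℝ) • (x₁ k + x₂ k) = 0
      rw [h1, h2]
      simp
    have h4 : (x₁ + y : ET) k = y k := by
      show x₁ k + y k = y k
      rw [h1, zero_add]
    have h5 : (x₂ - y : ET) k = - y k := by
      show x₂ k - y k = - y k
      rw [h2, zero_sub]
    rw [h3, h4, h5, norm_neg, norm_zero]
    refine Real.sqrt_le_iff.2 ⟨by positivity, ?_⟩
    nlinarith [norm_nonneg (y k)]

/-- the projection on a finite rectangle of coordinates -/
noncomputable def PT (A : Finset (ℕ × List ℕ)) (u : ET) : ET :=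
  ∑ a ∈ A, cd a.1 a.2 u • sg a.1 a.2

lemma cd_PT (A : Finset (ℕ × List ℕ)) (u : ET) (k : ℕ) (s : List ℕ) :
    cd k s (PT A u) = if (k, s) ∈ A then cd k s u else 0 := by
  rw [PT, map_sum]
  have h1 : ∀ a ∈ A, cd k s (cd a.1 a.2 u • sg a.1 a.2) =
      if a = (k, s) then cd k s u else 0 := by
    intro a _
    rw [map_smul, cd_sg, smul_eq_mul]
    by_cases h : a = (k, s)
    · subst h
      simp
    · have h' : ¬ (k = a.1 ∧ s = a.2) := fun hh => h (by
        ext1
        · exact hh.1.symm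
        · exact hh.2.symm)
      rw [if_neg h, if_neg h', mul_zero]
  rw [Finset.sum_congr rfl h1, Finset.sum_ite_eq']

/-- a bounded sequence in a proper space has two close terms -/
lemma exists_close_pair {Z : Type*} [NormedAddCommGroup Z] [ProperSpace Z] (q : ℕ → Z) (M : ℝ)
    (hq : ∀ i, ‖q i‖ ≤ M) {δ : ℝ} (hδ : 0 < δ) : ∃ i l, i ≠ l ∧ ‖q i - q l‖ < δ := by
  have hbdd : ∀ n, q n ∈ Metric.closedBall (0 : Z) M := fun n => by
    simpa [Metric.mem_closedBall, dist_zero_right] using hq n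
  obtain ⟨z, -, φ, hφ, hlim⟩ := tendsto_subseq_of_bounded (Metric.isBounded_closedBall) hbdd
  obtain ⟨N, hN⟩ := Metric.tendsto_atTop.1 hlim (δ / 2) (by linarith)
  refine ⟨φ N, φ (N + 1), (hφ.injective.ne (by omega)), ?_⟩
  have h1 := hN N le_rfl
  have h2 := hN (N + 1) (by omega)
  rw [dist_eq_norm] at h1 h2
  simp only [Function.comp] at h1 h2
  have h3 : q (φ N) - q (φ (N + 1)) = (q (φ N) - z) - (q (φ (N + 1)) - z) := by abel
  rw [h3]
  calc _ ≤ ‖q (φ N) - z‖ + ‖q (φ (N + 1)) - z‖ := norm_sub_le _ _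
    _ < δ := by linarith

/-- two terms of a bounded sequence are close after projection -/
lemma exists_close_PT (A : Finset (ℕ × List ℕ)) (v : ℕ → ET) (M : ℝ) (hv : ∀ i, ‖v i‖ ≤ M)
    {δ : ℝ} (hδ : 0 < δ) : ∃ i l, i ≠ l ∧ ‖PT A (v i) - PT A (v l)‖ < δ := by
  let TP : ET →L[ℝ] (A → ℝ) := ContinuousLinearMap.pi (fun a => cd a.1.1 a.1.2)
  have hTP : ∀ (u : ET) (a : A), TP u a = cd a.1.1 a.1.2 u := fun u a => rfl
  set δ₂ : ℝ := δ / (A.card + 1) with hδ₂
  have hδ₂pos : 0 < δ₂ := by positivity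
  obtain ⟨i, l, hil, hlt⟩ := exists_close_pair (fun i => TP (v i)) (‖TP‖ * M)
    (fun i => (TP.le_opNorm _).trans (by
      have := hv i
      gcongr)) hδ₂pos
  refine ⟨i, l, hil, ?_⟩
  have h1 : PT A (v i) - PT A (v l) =
      ∑ a ∈ A, (cd a.1 a.2 (v i) - cd a.1 a.2 (v l)) • sg a.1 a.2 := by
    rw [PT, PT, ← Finset.sum_sub_distrib]
    exact Finset.sum_congr rfl (fun a _ => (sub_smul _ _ _).symm)
  rw [h1]
  calc ‖∑ a ∈ A, (cd a.1 a.2 (v i) - cd a.1 a.2 (v l)) • sg a.1 a.2‖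
      ≤ ∑ a ∈ A, ‖(cd a.1 a.2 (v i) - cd a.1 a.2 (v l)) • sg a.1 a.2‖ := norm_sum_le _ _
    _ ≤ ∑ _a ∈ A, δ₂ := by
        refine Finset.sum_le_sum (fun a ha => ?_)
        rw [norm_smul]
        have h2 : ‖cd a.1 a.2 (v i) - cd a.1 a.2 (v l)‖ ≤ ‖TP (v i) - TP (v l)‖ := by
          have := norm_le_pi_norm (TP (v i) - TP (v l)) ⟨a, ha⟩
          exact this
        have h3 := norm_sg_le a.1 a.2
        have h4 : ‖cd a.1 a.2 (v i) - cd a.1 a.2 (v l)‖ ≤ δ₂ := h2.trans hlt.le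
        have h5 := norm_nonneg (sg a.1 a.2)
        have h6 := norm_nonneg (cd a.1 a.2 (v i) - cd a.1 a.2 (v l))
        nlinarith
    _ = A.card * δ₂ := by
        rw [Finset.sum_const, nsmul_eq_mul]
    _ < δ := by
        rw [hδ₂, mul_div_assoc', div_lt_iff₀ (by positivity)]
        nlinarith

lemma num_sq_lower {T δ ε m : ℝ} (hT : 0 ≤ T) (hδ : 0 < δ) (h2 : 2 * T * δ ≤ ε) (hε : 0 < ε)
    (hm : 0 ≤ m) (h : T - δ ≤ m) : T ^ 2 - ε ≤ m ^ 2 := by
  by_cases h3 : T - δ ≤ 0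
  · nlinarith [sq_nonneg m]
  · push_neg at h3
    have h4 : (T - δ) ^ 2 ≤ m ^ 2 := by gcongr
    nlinarith [sq_nonneg δ]

/-- The midpoint lemma. -/
theorem ET_midpoint (a b : ET) (w : ℕ → ET) (σ : ℝ) (hσ : 0 ≤ σ)
    (hsep : ∀ i l, i ≠ l → σ ≤ ‖w i - w l‖) (ε : ℝ) (hε : 0 < ε) :
    ∃ i, ‖(1 / 2 : ℝ) • (b - a)‖ ^ 2 + σ ^ 2 / 16 - ε ≤ max (‖w i - a‖ ^ 2) (‖b - w i‖ ^ 2) := by
  set x : ET := (1 / 2 : ℝ) • (b - a) with hx
  set c : ET := (1 / 2 : ℝ) • (a + b) with hc
  set v : ℕ → ET := fun i => w i - c with hv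
  have hw1 : ∀ i, w i - a = x + v i := by
    intro i
    simp only [hv, hx, hc]
    module
  have hw2 : ∀ i, b - w i = x - v i := by
    intro i
    simp only [hv, hx, hc]
    module
  set T : ℝ := Real.sqrt (‖x‖ ^ 2 + σ ^ 2 / 16) with hT
  have hT0 : 0 ≤ T := Real.sqrt_nonneg _
  have hT2 : T ^ 2 = ‖x‖ ^ 2 + σ ^ 2 / 16 := Real.sq_sqrt (by positivity)
  set δ : ℝ := ε / (2 * T + 1) with hδ
  have hδpos : 0 < δ := by positivity
  have hδ2 : 2 * T * δ ≤ ε := by
    rw [hδ, mul_div_assoc', div_le_iff₀ (by positivity)]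
    nlinarith
  suffices hj : ∃ j, T - δ ≤ (‖x + v j‖ + ‖x - v j‖) / 2 by
    obtain ⟨j, hj⟩ := hj
    refine ⟨j, ?_⟩
    rw [hw1, hw2, ← hT2]
    by_cases h : T - δ ≤ ‖x + v j‖
    · exact le_max_of_le_left (num_sq_lower hT0 hδpos hδ2 hε (norm_nonneg _) h)
    · push_neg at h
      have h' : T - δ ≤ ‖x - v j‖ := by linarith
      exact le_max_of_le_right (num_sq_lower hT0 hδpos hδ2 hε (norm_nonneg _) h')
  by_cases hbig : ∃ i, T ≤ ‖v i‖
  · obtain ⟨i, hi⟩ := hbig
    refine ⟨i, ?_⟩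
    have h1 : ‖v i + v i‖ ≤ ‖x + v i‖ + ‖x - v i‖ := by
      have : v i + v i = (x + v i) - (x - v i) := by abel
      rw [this]
      exact norm_sub_le _ _
    have h2 : ‖v i + v i‖ = 2 * ‖v i‖ := by
      rw [← two_smul ℝ, norm_smul]
      simp
    linarith
  push_neg at hbig
  set δ₁ : ℝ := δ / 3 with hδ₁
  have hδ₁pos : 0 < δ₁ := by positivity
  obtain ⟨x', K, S, h0, hS, hsupp, hxx'⟩ := exists_approx x hδ₁pos
  set A : Finset (ℕ × List ℕ) := K ×ˢ S with hA
  obtain ⟨i, l, hil, hcl⟩ := exists_close_PT A v T (fun i => (hbig i).le) hδ₁pos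
  set y : ℕ → ET := fun i => v i - PT A (v i) with hy
  have hyy : σ - δ₁ ≤ ‖y i - y l‖ := by
    have h1 := hsep i l hil
    have h2 : w i - w l = (y i - y l) + (PT A (v i) - PT A (v l)) := by
      simp only [hy, hv]
      abel
    have h3 : ‖w i - w l‖ ≤ ‖y i - y l‖ + ‖PT A (v i) - PT A (v l)‖ := by
      rw [h2]
      exact norm_add_le _ _
    linarith
  have hyt : ‖y i - y l‖ ≤ ‖y i‖ + ‖y l‖ := norm_sub_le _ _
  obtain ⟨j, hj⟩ : ∃ j, (σ - δ₁) / 2 ≤ ‖y j‖ := by
    by_cases h : (σ - δ₁) / 2 ≤ ‖y i‖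
    · exact ⟨i, h⟩
    · push_neg at h
      exact ⟨l, by linarith⟩
  refine ⟨j, ?_⟩
  have hsuppP : Supp K S (PT A (v j)) := by
    intro k s h
    rw [cd_PT, if_neg]
    rw [hA, Finset.mem_product]
    rintro ⟨h1, h2⟩
    rcases h with h | h
    · exact h h1
    · exact h h2
  have hkl := KL_E K S h0 hS (x' + PT A (v j)) (x' - PT A (v j)) (y j)
    (fun k s h => by rw [map_add, hsupp k s h, hsuppP k s h, add_zero])
    (fun k s h => by rw [map_sub, hsupp k s h, hsuppP k s h, sub_zero])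
    (fun k hk s hs => by
      simp only [hy]
      rw [map_sub, cd_PT, if_pos (by rw [hA, Finset.mem_product]; exact ⟨hk, hs⟩), sub_self])
  have e1 : (1 / 2 : ℝ) • (x' + PT A (v j) + (x' - PT A (v j))) = x' := by module
  have e2 : x' + PT A (v j) + y j = x' + v j := by
    simp only [hy]
    abel
  have e3 : x' - PT A (v j) - y j = x' - v j := by
    simp only [hy]
    abel
  rw [e1, e2, e3] at hkl
  set R : ℝ := Real.sqrt (‖x'‖ ^ 2 + ‖y j‖ ^ 2 / 4) with hR
  have hR0 : 0 ≤ R := Real.sqrt_nonneg _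
  have hR2 : R ^ 2 = ‖x'‖ ^ 2 + ‖y j‖ ^ 2 / 4 := Real.sq_sqrt (by positivity)
  have h1 : ‖x' + v j‖ ≤ ‖x + v j‖ + δ₁ := by
    have : x' + v j = (x + v j) - (x - x') := by abel
    rw [this]
    have := norm_sub_le (x + v j) (x - x')
    linarith
  have h2 : ‖x' - v j‖ ≤ ‖x - v j‖ + δ₁ := by
    have : x' - v j = (x - v j) - (x - x') := by abel
    rw [this]
    have := norm_sub_le (x - v j) (x - x')
    linarith
  -- comparison of `T` and `R`
  have hp : ‖x‖ ≤ ‖x'‖ + δ₁ := by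
    have := norm_sub_norm_le x x'
    linarith
  have hq : σ / 4 ≤ ‖y j‖ / 2 + δ₁ := by linarith
  have hp' : ‖x'‖ ≤ R := Real.le_sqrt_of_sq_le (by nlinarith [sq_nonneg ‖y j‖])
  have hq' : ‖y j‖ / 2 ≤ R := Real.le_sqrt_of_sq_le (by nlinarith [sq_nonneg ‖x'‖])
  have hTR : T ≤ R + 2 * δ₁ := by
    refine Real.sqrt_le_iff.2 ⟨by positivity, ?_⟩
    have h5 : ‖x‖ ^ 2 ≤ (‖x'‖ + δ₁) ^ 2 := by gcongr
    have h6 : (σ / 4) ^ 2 ≤ (‖y j‖ / 2 + δ₁) ^ 2 := by gcongr
    have h7 : δ₁ * ‖x'‖ ≤ δ₁ * R := by gcongr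
    have h8 : δ₁ * (‖y j‖ / 2) ≤ δ₁ * R := by gcongr
    nlinarith
  have : δ = 3 * δ₁ := by
    rw [hδ₁]
    ring
  linarith

/-- the modulus lower bound -/
theorem ET_modulus (t : ℝ) (ht : 0 < t) (x : ET) (hx : ‖x‖ = 1) (η : ℝ) (hη : 0 < η) :
    ∃ F : Submodule ℝ ET, IsClosed (F : Set ET) ∧ FiniteDimensional ℝ (ET ⧸ F) ∧
      ∀ y ∈ F, ‖y‖ = 1 →
        Real.sqrt (1 + t ^ 2 / 4) - 1 - η ≤ (‖x + t • y‖ + ‖x - t • y‖) / 2 - 1 := by
  set W := Real.sqrt (1 + t ^ 2 / 4) with hW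
  have hW0 : 0 ≤ W := Real.sqrt_nonneg _
  set ε : ℝ := min (1 / 2) (η / (W + 1)) with hε
  have hεpos : 0 < ε := lt_min (by norm_num) (by positivity)
  have hε1 : ε ≤ 1 / 2 := min_le_left _ _
  have hε2 : ε * (W + 1) ≤ η := by
    have : ε ≤ η / (W + 1) := min_le_right _ _
    rwa [le_div_iff₀ (by positivity)] at this
  obtain ⟨x', K, S, h0, hS, hsupp, hxx'⟩ := exists_approx x hεpos
  set A : Finset (ℕ × List ℕ) := K ×ˢ S with hA
  obtain ⟨F, hFcl, hFfd, hFmem⟩ := exists_cof_of_functionals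
    (fun a : A => cd a.1.1 a.1.2)
  refine ⟨F, hFcl, hFfd, fun y hy hy1 => ?_⟩
  have hkl := KL_E K S h0 hS x' x' (t • y) hsupp hsupp (fun k hk s hs => by
    have := (hFmem y).1 hy ⟨(k, s), by rw [hA, Finset.mem_product]; exact ⟨hk, hs⟩⟩
    rw [map_smul, this, smul_zero])
  have e1 : (1 / 2 : ℝ) • (x' + x') = x' := by module
  have e2 : ‖t • y‖ = t := by
    rw [norm_smul, hy1, Real.norm_of_nonneg ht.le, mul_one]
  rw [e1, e2] at hkl
  have hcl : 1 - ε ≤ ‖x'‖ := by
    have := norm_sub_norm_le x x'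
    linarith
  have hεn : 0 ≤ 1 - ε := by linarith
  have hR : (1 - ε) * W ≤ Real.sqrt (‖x'‖ ^ 2 + t ^ 2 / 4) := by
    have h1 : (1 - ε) * W = Real.sqrt ((1 - ε) ^ 2 * (1 + t ^ 2 / 4)) := by
      rw [Real.sqrt_mul (sq_nonneg _), Real.sqrt_sq hεn]
    rw [h1]
    apply Real.sqrt_le_sqrt
    have h2 : (1 - ε) ^ 2 ≤ ‖x'‖ ^ 2 := by gcongr
    have h3 : (1 - ε) ^ 2 ≤ 1 := by nlinarith
    nlinarith [sq_nonneg t]
  have h1 : ‖x' + t • y‖ ≤ ‖x + t • y‖ + ε := by
    have : x' + t • y = (x + t • y) - (x - x') := by abel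
    rw [this]
    have := norm_sub_le (x + t • y) (x - x')
    linarith
  have h2 : ‖x' - t • y‖ ≤ ‖x - t • y‖ + ε := by
    have : x' - t • y = (x - t • y) - (x - x') := by abel
    rw [this]
    have := norm_sub_le (x - t • y) (x - x')
    linarith
  nlinarith

end Crest.Agent.Lib.AUC
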